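import Vale.Agent.P030.H476.Log
import Mathlib.Analysis.SpecialFunctions.Complex.Log

/-!
# Kernel checked enclosures of finite sums of logarithms

`up n`, `lo n` are naturals with `lo n ≤ 2 ^ 40 * log n ≤ up n` (`n ≥ 1`).
`check P N B = true` proves `∑_P c log n - ∑_N c log n ≤ B / 2 ^ 40`.
The second part treats the quadratic form of signed charges at Gaussian integers.
-/

namespace Vale.Agent.P030.H476

open Real

/-- upper and lower fixed point values (`n ≥ 1`); `0` for `n = 0` -/
def lo (n : Nat) : Nat := bif Nat.beq n 0 then 0 else lgN n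
def up (n : Nat) : Nat := bif Nat.beq n 0 then 0 else lgN n + Nat.log2 n + 9

theorem beq_pos {n : Nat} (h : 0 < n) : Nat.beq n 0 = false := by
  rw [Bool.eq_false_iff]; intro hh; have := Nat.eq_of_beq_eq_true hh; omega

theorem lo_pos {n : Nat} (h : 0 < n) : lo n = lgN n := by
  rw [lo, beq_pos h, cond_false]

theorem up_pos {n : Nat} (h : 0 < n) : up n = lgN n + Nat.log2 n + 9 := by
  rw [up, beq_pos h, cond_false]

theorem lo_zero : lo 0 = 0 := by
  rw [lo, show Nat.beq 0 0 = true from rfl, cond_true]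

theorem up_zero : up 0 = 0 := by
  rw [up, show Nat.beq 0 0 = true from rfl, cond_true]

theorem lo_le (n : Nat) : (lo n : ℝ) ≤ 2 ^ 40 * log n := by
  rcases Nat.eq_zero_or_pos n with h | h
  · rw [h, lo_zero, Nat.cast_zero, Real.log_zero, mul_zero]
  · rw [lo_pos h]
    exact (lgN_bound n h.ne').1

theorem le_up (n : Nat) : 2 ^ 40 * log n ≤ (up n : ℝ) := by
  rcases Nat.eq_zero_or_pos n with h | h
  · rw [h, up_zero, Nat.cast_zero, Real.log_zero, mul_zero]
  · rw [up_pos h]
    refine (lgN_bound n h.ne').2.trans (le_of_eq ?_)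
    rw [add_assoc, Nat.cast_add (lgN n)]

/-- weighted sums with accumulator -/
def sumUp : List (Nat × Nat) → Nat → Nat
  | [], a => a
  | (c, n) :: l, a => sumUp l (a + c * up n)

def sumLo : List (Nat × Nat) → Nat → Nat
  | [], a => a
  | (c, n) :: l, a => sumLo l (a + c * lo n)

/-- the real sum -/
noncomputable def sumR : List (Nat × Nat) → ℝ
  | [] => 0
  | (c, n) :: l => c * log n + sumR l

theorem sumUp_ge (l : List (Nat × Nat)) (a : Nat) : 2 ^ 40 * sumR l + a ≤ (sumUp l a : ℝ) := by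
  induction l generalizing a with
  | nil => simp [sumUp, sumR]
  | cons p l ih =>
    obtain ⟨c, n⟩ := p
    rw [sumUp, sumR]
    refine le_trans ?_ (ih _)
    have h := mul_le_mul_of_nonneg_left (le_up n) (Nat.cast_nonneg c : (0 : ℝ) ≤ c)
    push_cast
    linarith

theorem sumLo_le (l : List (Nat × Nat)) (a : Nat) : (sumLo l a : ℝ) ≤ 2 ^ 40 * sumR l + a := by
  induction l generalizing a with
  | nil => simp [sumLo, sumR]
  | cons p l ih =>
    obtain ⟨c, n⟩ := p
    rw [sumLo, sumR]
    refine (ih _).trans ?_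
    have h := mul_le_mul_of_nonneg_left (lo_le n) (Nat.cast_nonneg c : (0 : ℝ) ≤ c)
    push_cast
    linarith

/-- `P` = positive part, `N` = negative part, `Bp - Bn` = bound. -/
def check (P N : List (Nat × Nat)) (Bp Bn : Nat) : Bool :=
  Nat.ble (sumUp P Bn) (sumLo N Bp)

theorem of_check {P N : List (Nat × Nat)} {Bp Bn : Nat} (h : check P N Bp Bn = true) :
    sumR P - sumR N ≤ ((Bp : ℝ) - Bn) / 2 ^ 40 := by
  have h1 := Nat.le_of_ble_eq_true h
  have h2 : (sumUp P Bn : ℝ) ≤ sumLo N Bp := by exact_mod_cast h1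
  have h3 := sumUp_ge P Bn
  have h4 := sumLo_le N Bp
  rw [le_div_iff₀ (by positivity)]
  linarith

/-! ## charges at Gaussian integers -/

/-- a signed charge `qp - qn` at the point `x + i y` (natural coordinates after a shift). -/
structure Atom where
  x : Nat
  y : Nat
  qp : Nat
  qn : Nat

/-- squared distance -/
def d2 (x y x' y' : Nat) : Nat := (x * x + x' * x' - 2 * (x * x')) + (y * y + y' * y' - 2 * (y * y'))

theorem d2_cast (x y x' y' : Nat) :
    (d2 x y x' y' : ℝ) = ((x : ℝ) - x') ^ 2 + ((y : ℝ) - y') ^ 2 := by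
  have h (a b : Nat) : 2 * (a * b) ≤ a * a + b * b := by
    have h0 : (2 * (a * b) : ℤ) ≤ a * a + b * b := by nlinarith [sq_nonneg ((a : ℤ) - b)]
    exact_mod_cast h0
  rw [d2]
  push_cast [Nat.cast_sub (h x x'), Nat.cast_sub (h y y')]
  ring

noncomputable def Atom.pt (a : Atom) : ℂ := ⟨a.x, a.y⟩
noncomputable def Atom.q (a : Atom) : ℝ := (a.qp : ℝ) - a.qn

theorem log_d2 (a b : Atom) : log (d2 a.x a.y b.x b.y) = 2 * log ‖a.pt - b.pt‖ := by
  rw [d2_cast]
  have h : ((a.x : ℝ) - b.x) ^ 2 + ((a.y : ℝ) - b.y) ^ 2 = ‖a.pt - b.pt‖ ^ 2 := by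
    rw [Complex.sq_norm, Complex.normSq_apply]
    simp only [Atom.pt, Complex.sub_re, Complex.sub_im]
    ring
  rw [h, Real.log_pow]
  norm_num

/-- potential of a list of atoms at an atom, positive and negative accumulators -/
def rowP (x y qp qn : Nat) : List Atom → Nat → Nat
  | [], s => s
  | b :: l, s => rowP x y qp qn l (s + (qp * b.qp + qn * b.qn) * up (d2 x y b.x b.y))

def rowN (x y qp qn : Nat) : List Atom → Nat → Nat
  | [], s => s
  | b :: l, s => rowN x y qp qn l (s + (qp * b.qn + qn * b.qp) * lo (d2 x y b.x b.y))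

/-- `∑_b q_a q_b log |a - b| ^ 2` -/
noncomputable def rowR (a : Atom) : List Atom → ℝ
  | [] => 0
  | b :: l => a.q * b.q * (2 * log ‖a.pt - b.pt‖) + rowR a l

theorem row_bound (a : Atom) (l : List Atom) (s t : Nat) :
    2 ^ 40 * rowR a l + s - t ≤ (rowP a.x a.y a.qp a.qn l s : ℝ) - rowN a.x a.y a.qp a.qn l t := by
  induction l generalizing s t with
  | nil => simp [rowP, rowN, rowR]
  | cons b l ih =>
    rw [rowP, rowN, rowR]
    refine le_trans ?_ (ih _ _)
    have h1 := mul_le_mul_of_nonneg_left (le_up (d2 a.x a.y b.x b.y))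
      (Nat.cast_nonneg (a.qp * b.qp + a.qn * b.qn) : (0 : ℝ) ≤ ((a.qp * b.qp + a.qn * b.qn : ℕ) : ℝ))
    have h2 := mul_le_mul_of_nonneg_left (lo_le (d2 a.x a.y b.x b.y))
      (Nat.cast_nonneg (a.qp * b.qn + a.qn * b.qp) : (0 : ℝ) ≤ ((a.qp * b.qn + a.qn * b.qp : ℕ) : ℝ))
    rw [log_d2] at h1 h2
    simp only [Atom.q]
    push_cast at h1 h2 ⊢
    linarith

/-- quadratic form over unordered pairs: accumulators -/
def enP : List Atom → Nat → Nat
  | [], s => s
  | a :: l, s => enP l (rowP a.x a.y a.qp a.qn l s)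

def enN : List Atom → Nat → Nat
  | [], s => s
  | a :: l, s => enN l (rowN a.x a.y a.qp a.qn l s)

/-- `∑_{a < b} q_a q_b log |a - b| ^ 2 = ∑_{a ≠ b} q_a q_b log |a - b|` -/
noncomputable def enR : List Atom → ℝ
  | [] => 0
  | a :: l => rowR a l + enR l

theorem en_bound (l : List Atom) (s t : Nat) :
    2 ^ 40 * enR l + s - t ≤ (enP l s : ℝ) - enN l t := by
  induction l generalizing s t with
  | nil => simp [enP, enN, enR]
  | cons a l ih =>
    rw [enP, enN, enR]
    have h1 := row_bound a l s t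
    have h2 := ih (rowP a.x a.y a.qp a.qn l s) (rowN a.x a.y a.qp a.qn l t)
    linarith

/-- mixed form `∑_{a ∈ k, b ∈ l}` -/
def mixP : List Atom → List Atom → Nat → Nat
  | [], _, s => s
  | a :: k, l, s => mixP k l (rowP a.x a.y a.qp a.qn l s)

def mixN : List Atom → List Atom → Nat → Nat
  | [], _, s => s
  | a :: k, l, s => mixN k l (rowN a.x a.y a.qp a.qn l s)

noncomputable def mixR : List Atom → List Atom → ℝ
  | [], _ => 0
  | a :: k, l => rowR a l + mixR k l

theorem mix_bound (k l : List Atom) (s t : Nat) :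
    2 ^ 40 * mixR k l + s - t ≤ (mixP k l s : ℝ) - mixN k l t := by
  induction k generalizing s t with
  | nil => simp [mixP, mixN, mixR]
  | cons a k ih =>
    rw [mixP, mixN, mixR]
    have h1 := row_bound a l s t
    have h2 := ih (rowP a.x a.y a.qp a.qn l s) (rowN a.x a.y a.qp a.qn l t)
    linarith

/-- reversed charges -/
def Atom.neg (a : Atom) : Atom := ⟨a.x, a.y, a.qn, a.qp⟩

theorem Atom.neg_q (a : Atom) : a.neg.q = - a.q := by simp [Atom.q, Atom.neg]

theorem rowR_neg (a : Atom) (l : List Atom) : rowR a.neg l = - rowR a l := by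
  induction l with
  | nil => simp [rowR]
  | cons b l ih =>
    rw [rowR, rowR, ih, Atom.neg_q]
    have : a.neg.pt = a.pt := rfl
    rw [this]; ring

theorem mixR_neg (k l : List Atom) : mixR (k.map Atom.neg) l = - mixR k l := by
  induction k with
  | nil => simp [mixR]
  | cons a k ih => rw [List.map_cons, mixR, mixR, ih, rowR_neg]; ring

/-- lower bound of the quadratic form -/
def enLP : List Atom → Nat → Nat
  | [], s => s
  | a :: l, s => enLP l (rowP a.x a.y a.qn a.qp l s)

def enLN : List Atom → Nat → Nat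
  | [], s => s
  | a :: l, s => enLN l (rowN a.x a.y a.qn a.qp l s)

theorem enL_bound (l : List Atom) (s t : Nat) :
    - (2 ^ 40 * enR l) + s - t ≤ (enLP l s : ℝ) - enLN l t := by
  induction l generalizing s t with
  | nil => simp [enLP, enLN, enR]
  | cons a l ih =>
    rw [enLP, enLN, enR]
    have h1 := row_bound a.neg l s t
    rw [rowR_neg] at h1
    have h2 := ih (rowP a.x a.y a.qn a.qp l s) (rowN a.x a.y a.qn a.qp l t)
    have e1 : rowP a.neg.x a.neg.y a.neg.qp a.neg.qn l s = rowP a.x a.y a.qn a.qp l s := rfl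
    have e2 : rowN a.neg.x a.neg.y a.neg.qp a.neg.qn l t = rowN a.x a.y a.qn a.qp l t := rfl
    rw [e1, e2] at h1
    linarith

/-! ## potentials at a point -/

/-- accumulators for `∑_b q_b log |p - b| ^ 2` at the point `x + i y`. -/
def potP (x y : Nat) (l : List Atom) (s : Nat) : Nat := rowP x y 1 0 l s
def potN (x y : Nat) (l : List Atom) (s : Nat) : Nat := rowN x y 1 0 l s

noncomputable def potR (p : ℂ) : List Atom → ℝ
  | [] => 0
  | b :: l => b.q * (2 * log ‖p - b.pt‖) + potR p l

theorem rowR_one (x y : Nat) (l : List Atom) : rowR ⟨x, y, 1, 0⟩ l = potR ⟨x, y⟩ l := by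
  induction l with
  | nil => rfl
  | cons b l ih => rw [rowR, potR, ih]; simp [Atom.q, Atom.pt]

theorem pot_bound (x y : Nat) (l : List Atom) (s t : Nat) :
    2 ^ 40 * potR ⟨x, y⟩ l + s - t ≤ (potP x y l s : ℝ) - potN x y l t := by
  rw [← rowR_one]
  exact row_bound ⟨x, y, 1, 0⟩ l s t

end Vale.Agent.P030.H476
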