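import Vale.Agent.P030.H476.LogSum
import Mathlib.Analysis.SpecialFunctions.Complex.Arctan
import Mathlib.Analysis.SpecialFunctions.Trigonometric.ArctanDeriv
import Mathlib.Analysis.Real.Pi.Bounds

/-!
# Kernel friendly enclosures of arguments

`atn y x` for `0 ≤ y ≤ x`, `0 < x` : `|atn y x - 2 ^ 40 * arctan (y / x)| ≤ 5`.
`argU neg x y` for the point `±x + i y` of the closed upper half plane.
-/

namespace Vale.Agent.P030.H476

open Real

/-- alternating Horner scheme with floors -/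
def horA : List Nat → Nat → Nat
  | [], _ => 0
  | c :: cs, a => c - (a * horA cs a) >>> 80

noncomputable def horAR : Nat → Nat → ℝ → ℝ
  | 0, _, _ => 0
  | K + 1, k, y => 1 / (2 * k + 1) - y * horAR K (k + 1) y

theorem horAR_bounds (K k : Nat) {y : ℝ} (h0 : 0 ≤ y) (h1 : y ≤ 1) :
    0 ≤ horAR K k y ∧ horAR K k y ≤ 1 / (2 * k + 1) := by
  induction K generalizing k with
  | zero => simp only [horAR]; exact ⟨le_rfl, by positivity⟩
  | succ K ih =>
    obtain ⟨i1, i2⟩ := ih (k + 1)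
    simp only [horAR]
    constructor
    · have h2 : (1 : ℝ) / (2 * ((k + 1 : ℕ) : ℝ) + 1) ≤ 1 / (2 * k + 1) := by
        apply one_div_le_one_div_of_le (by positivity)
        push_cast; linarith
      have h3 : y * horAR K (k + 1) y ≤ 1 * horAR K (k + 1) y :=
        mul_le_mul_of_nonneg_right h1 i1
      linarith
    · have := mul_nonneg h0 i1
      linarith

theorem horA_bound (K k a : Nat) (ha : (a : ℝ) ≤ 2 ^ 80 / 5) :
    |(horA (coefs K k) a : ℝ) - 2 ^ 40 * horAR K k (a / 2 ^ 80)| ≤ 5 / 4 := by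
  induction K generalizing k with
  | zero =>
    simp only [horA, horAR, coefs]
    norm_num
  | succ K ih =>
    have h := ih (k + 1)
    have hc := div_bounds 1099511627776 (2 * k + 1) (by omega)
    have hc0 : ((1099511627776 : ℕ) : ℝ) / ((2 * k + 1 : ℕ) : ℝ) = 2 ^ 40 / (2 * k + 1) := by
      push_cast; norm_num
    rw [hc0] at hc
    have hc1 : (coef k : ℝ) ≤ 2 ^ 40 / (2 * k + 1) := hc.1
    have hc2 : (2 : ℝ) ^ 40 / (2 * k + 1) ≤ coef k + 1 := hc.2
    set r := horA (coefs K (k + 1)) a with hr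
    have hs := shr_bounds (a * r) 80
    have hs0 : ((a * r : ℕ) : ℝ) / 2 ^ 80 = a / 2 ^ 80 * r := by rw [Nat.cast_mul]; ring
    rw [hs0] at hs
    obtain ⟨hs1, hs2⟩ := hs
    set y : ℝ := (a : ℝ) / 2 ^ 80 with hy
    have hy0 : 0 ≤ y := by positivity
    have hy1 : y ≤ 1 / 5 := by
      rw [hy, div_le_iff₀ (by positivity)]; linarith
    obtain ⟨g1, g2⟩ := horAR_bounds (K + 1) k hy0 (hy1.trans (by norm_num))
    simp only [horAR] at g1 g2
    simp only [coefs, horA, horAR]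
    rw [← hr]
    set R : ℝ := horAR K (k + 1) y with hR
    obtain ⟨a1, a2⟩ := abs_le.1 h
    have m1 := mul_le_mul_of_nonneg_left a1 hy0
    have m2 := mul_le_mul_of_nonneg_left a2 hy0
    have e : (2 : ℝ) ^ 40 * (1 / (2 * k + 1) - y * R) = 2 ^ 40 / (2 * k + 1) - y * (2 ^ 40 * R) := by
      ring
    have g1' : 0 ≤ (2 : ℝ) ^ 40 * (1 / (2 * k + 1) - y * R) := by positivity
    rw [e] at g1' ⊢
    set s : ℕ := (a * r) >>> 80 with hsd
    have n1 : ((coef k - s : ℕ) : ℝ) = max ((coef k : ℝ) - s) 0 := by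
      rcases le_total s (coef k) with h3 | h3
      · rw [Nat.cast_sub h3, max_eq_left]
        have : (s : ℝ) ≤ coef k := by exact_mod_cast h3
        linarith
      · rw [Nat.sub_eq_zero_of_le h3, Nat.cast_zero, max_eq_right]
        have : (coef k : ℝ) ≤ s := by exact_mod_cast h3
        linarith
    rw [n1, abs_le]
    constructor
    · have := le_max_left ((coef k : ℝ) - s) 0
      nlinarith
    · rcases max_cases ((coef k : ℝ) - s) 0 with ⟨h4, _⟩ | ⟨h4, _⟩
      · rw [h4]; nlinarith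
      · rw [h4]; linarith

theorem horAR_eq (K k : Nat) (x : ℝ) :
    x ^ (2 * k + 1) * horAR K k (x ^ 2) =
      ∑ j ∈ Finset.range K, (-1) ^ j * x ^ (2 * (k + j) + 1) / (2 * ((k + j : ℕ) : ℝ) + 1) := by
  induction K generalizing k with
  | zero => simp [horAR]
  | succ K ih =>
    rw [Finset.sum_range_succ', horAR]
    have h := ih (k + 1)
    have e : x ^ (2 * k + 1) * (1 / (2 * (k : ℝ) + 1) - x ^ 2 * horAR K (k + 1) (x ^ 2)) =
      -(x ^ (2 * (k + 1) + 1) * horAR K (k + 1) (x ^ 2)) + 1 / (2 * (k : ℝ) + 1) * x ^ (2 * k + 1) := by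
      ring
    rw [e, h, ← Finset.sum_neg_distrib]
    congr 1
    · refine Finset.sum_congr rfl fun j _ => ?_
      rw [show k + 1 + j = k + (j + 1) by ring, pow_succ]
      ring
    · simp only [add_zero, pow_zero, one_mul]
      ring

/-- arctan series with remainder -/
theorem seriesA (K : Nat) {x : ℝ} (h0 : 0 ≤ x) (h1 : x ≤ 5 / 12) :
    |arctan x - x * horAR K 0 (x ^ 2)| ≤ (5 / 12) ^ (2 * K + 1) / (2 * K + 1) * (144 / 119) := by
  have hs := Real.hasSum_arctan (x := x) (by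
    rw [Real.norm_eq_abs, abs_of_nonneg h0]; linarith)
  have e : x * horAR K 0 (x ^ 2) =
      ∑ n ∈ Finset.range K, (-1) ^ n * x ^ (2 * n + 1) / ((2 * n + 1 : ℕ) : ℝ) := by
    have := horAR_eq K 0 x
    simp only [mul_zero, zero_add, pow_one] at this
    rw [this]
    refine Finset.sum_congr rfl fun j _ => by push_cast; ring
  have ht := (hasSum_nat_add_iff' K).mpr hs
  rw [e]
  have hg : HasSum (fun n : ℕ => (5 / 12 : ℝ) ^ (2 * K + 1) / (2 * K + 1) * ((25 / 144 : ℝ) ^ n))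
      ((5 / 12 : ℝ) ^ (2 * K + 1) / (2 * K + 1) * (1 - 25 / 144)⁻¹) :=
    (hasSum_geometric_of_lt_one (by norm_num) (by norm_num)).mul_left _
  have hle := tsum_of_norm_bounded hg (f := fun n : ℕ =>
    (-1) ^ (n + K) * x ^ (2 * (n + K) + 1) / ((2 * (n + K) + 1 : ℕ) : ℝ)) (fun n => by
    rw [Real.norm_eq_abs, abs_div, abs_mul, abs_pow, abs_neg, abs_one, one_pow, one_mul, abs_pow,
      abs_of_nonneg h0, Nat.abs_cast]
    have h2 : x ^ (2 * (n + K) + 1) ≤ (5 / 12 : ℝ) ^ (2 * (n + K) + 1) := pow_le_pow_left₀ h0 h1 _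
    have h3 : (5 / 12 : ℝ) ^ (2 * (n + K) + 1) = (5 / 12) ^ (2 * K + 1) * (25 / 144) ^ n := by
      rw [show (25 / 144 : ℝ) = (5 / 12) ^ 2 by norm_num, ← pow_mul, ← pow_add]; ring_nf
    rw [div_mul_eq_mul_div, ← h3]
    refine div_le_div₀ (by positivity) h2 (by positivity) ?_
    push_cast
    have : (0 : ℝ) ≤ n := Nat.cast_nonneg n
    linarith)
  rw [ht.tsum_eq, Real.norm_eq_abs] at hle
  refine hle.trans (le_of_eq ?_)
  norm_num

def g15 (a : Nat) : Nat :=
  (1099511627776 - (a * (366503875925 - (a * (219902325555 - (a * (157073089682 - (a *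
  (122167958641 - (a * (99955602525 - (a * (84577817521 - (a * (73300775185 - (a *
  (64677154575 - (a * (57869033040 - (a * (52357696560 - (a * (47804853381 - (a * (43980465111
  - (a * (40722652880 - (a * (37914194061)) >>> 80)) >>> 80)) >>> 80)) >>> 80)) >>> 80)) >>>
  80)) >>> 80)) >>> 80)) >>> 80)) >>> 80)) >>> 80)) >>> 80)) >>> 80)) >>> 80)

theorem g15_eq (a : Nat) : g15 a = horA (coefs 15 0) a := by
  simp [g15, horA, coefs, coef]

def ats (t : Nat) : Nat := (t * g15 (t * t)) >>> 40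

theorem ats_bound (t : Nat) (ht : (t : ℝ) ≤ 5 / 12 * 2 ^ 40) :
    |(ats t : ℝ) - 2 ^ 40 * arctan (t / 2 ^ 40)| ≤ 8 / 5 := by
  have ht0 : (0 : ℝ) ≤ t := Nat.cast_nonneg _
  set x : ℝ := t / 2 ^ 40 with hx
  have hx0 : 0 ≤ x := by positivity
  have hx1 : x ≤ 5 / 12 := by rw [hx, div_le_iff₀ (by positivity)]; linarith
  have ha : ((t * t : ℕ) : ℝ) ≤ 2 ^ 80 / 5 := by
    push_cast
    nlinarith
  have hb := horA_bound 15 0 (t * t) ha
  have hxx : ((t * t : ℕ) : ℝ) / 2 ^ 80 = x ^ 2 := by rw [hx]; push_cast; ring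
  rw [hxx, ← g15_eq] at hb
  have hs := seriesA 15 hx0 hx1
  set H : ℝ := horAR 15 0 (x ^ 2) with hH
  set h := g15 (t * t) with hh
  have f := shr_bounds (t * h) 40
  have f0 : ((t * h : ℕ) : ℝ) / 2 ^ 40 = x * h := by rw [hx, Nat.cast_mul]; ring
  rw [f0] at f
  have f1 : (ats t : ℝ) ≤ x * h := f.1
  have f2 : x * h ≤ ats t + 1 := f.2
  obtain ⟨b1, b2⟩ := abs_le.1 hb
  obtain ⟨s1, s2⟩ := abs_le.1 hs
  have m1 := mul_le_mul_of_nonneg_left b1 hx0
  have m2 := mul_le_mul_of_nonneg_left b2 hx0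
  have hn : ((5 : ℝ) / 12) ^ (2 * 15 + 1) / (2 * (15 : ℕ) + 1) * (144 / 119) * 2 ^ 40 ≤ 8 / 100 := by
    norm_num
  have k1 : 2 ^ 40 * (arctan x - x * H) ≤ 8 / 100 := by nlinarith
  have k2 : -(8 / 100) ≤ 2 ^ 40 * (arctan x - x * H) := by nlinarith
  rw [abs_le]
  constructor
  · nlinarith
  · nlinarith

theorem arctan_lip (a b : ℝ) : |arctan a - arctan b| ≤ |a - b| := by
  have h := Convex.norm_image_sub_le_of_norm_deriv_le (𝕜 := ℝ) (f := arctan) (C := 1)
    (s := Set.univ) (fun x _ => differentiableAt_arctan x) (fun x _ => by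
      rw [Real.deriv_arctan, Real.norm_eq_abs, abs_of_nonneg (by positivity)]
      rw [div_le_one (by positivity)]
      nlinarith [sq_nonneg x]) convex_univ (Set.mem_univ b) (Set.mem_univ a)
  rw [one_mul] at h
  exact h

theorem arctan_compl {x : ℝ} (h0 : 0 ≤ x) :
    arctan x = π / 4 - arctan ((1 - x) / (1 + x)) := by
  have h1 : arctan 1 = π / 4 := arctan_one
  have h2 : arctan x + arctan ((1 - x) / (1 + x)) = arctan 1 := by
    have hp : 0 < 1 + x := by linarith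
    rw [arctan_add]
    · congr 1
      have : 1 - x * ((1 - x) / (1 + x)) = (1 + x ^ 2) / (1 + x) := by field_simp; ring
      rw [this]
      have h3 : x + (1 - x) / (1 + x) = (1 + x ^ 2) / (1 + x) := by field_simp; ring
      rw [h3, div_self (by positivity)]
    · rw [mul_div_assoc', div_lt_one hp]
      nlinarith [sq_nonneg x]
  linarith

/-- scaled ratio `t = floor (2 ^ 40 y / x) ≤ 2 ^ 40` to scaled arctan -/
def atT (t : Nat) : Nat :=
  bif Nat.ble t 458129844906 then ats t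
  else 863554413089 - ats (((1099511627776 - t) <<< 40) / (1099511627776 + t))

def atn (y x : Nat) : Nat := atT ((y <<< 40) / x)

theorem pi_bounds : (3454217652357 : ℝ) + 1 / 2 ≤ 2 ^ 40 * π ∧ 2 ^ 40 * π ≤ 3454217652357 + 3 / 4 := by
  have h1 := Real.pi_gt_d20
  have h2 := Real.pi_lt_d20
  constructor <;> nlinarith

theorem compl_core {x s a : ℝ} (hx0 : 0 ≤ x) (hs : |s / 2 ^ 40 - (1 - x) / (1 + x)| ≤ 1 / 2 ^ 40)
    (ha : |a - 2 ^ 40 * arctan (s / 2 ^ 40)| ≤ 8 / 5) :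
    |863554413089 - a - 2 ^ 40 * arctan x| ≤ 4 := by
  have hl := arctan_lip (s / 2 ^ 40) ((1 - x) / (1 + x))
  obtain ⟨v1, v2⟩ := abs_le.1 (hl.trans hs)
  rw [arctan_compl hx0]
  obtain ⟨p1, p2⟩ := pi_bounds
  obtain ⟨u1, u2⟩ := abs_le.1 ha
  have w1 := mul_le_mul_of_nonneg_left v1 (by positivity : (0 : ℝ) ≤ 2 ^ 40)
  have w2 := mul_le_mul_of_nonneg_left v2 (by positivity : (0 : ℝ) ≤ 2 ^ 40)
  have e1 : (2 : ℝ) ^ 40 * (1 / 2 ^ 40) = 1 := by norm_num
  have e2 : (2 : ℝ) ^ 40 * -(1 / 2 ^ 40) = -1 := by norm_num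
  rw [e1] at w2
  rw [e2] at w1
  rw [abs_le]
  constructor
  · linarith
  · linarith

theorem ats_le (s : Nat) (hs : (s : ℝ) ≤ 5 / 12 * 2 ^ 40) : ats s ≤ 863554413089 := by
  have ha := ats_bound s hs
  have h6 : arctan (s / 2 ^ 40) ≤ s / 2 ^ 40 := by
    have := arctan_lip (s / 2 ^ 40) 0
    rw [arctan_zero, sub_zero, sub_zero] at this
    have h7 : (0 : ℝ) ≤ (s : ℝ) / 2 ^ 40 := by positivity
    rw [abs_of_nonneg h7] at this
    exact (le_abs_self _).trans this
  have h9 := mul_le_mul_of_nonneg_left h6 (by positivity : (0 : ℝ) ≤ 2 ^ 40)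
  have e : (2 : ℝ) ^ 40 * (s / 2 ^ 40) = s := by field_simp
  rw [e] at h9
  have h10 := (abs_le.1 ha).2
  have h11 : (5 : ℝ) / 12 * 2 ^ 40 ≤ 458129844907 := by norm_num
  have h8 : (ats s : ℝ) ≤ 863554413089 := by linarith
  exact_mod_cast h8

theorem ratio_compl (t s : Nat) (ht : t ≤ 2 ^ 40)
    (hs : s = ((1099511627776 - t) <<< 40) / (1099511627776 + t)) :
    (s : ℝ) ≤ 2 ^ 40 * ((1 - (t : ℝ) / 2 ^ 40) / (1 + (t : ℝ) / 2 ^ 40)) ∧
      (2 : ℝ) ^ 40 * ((1 - (t : ℝ) / 2 ^ 40) / (1 + (t : ℝ) / 2 ^ 40)) ≤ (s : ℝ) + 1 := by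
  have ht0 : (0 : ℝ) ≤ t := Nat.cast_nonneg _
  have hsub : ((1099511627776 - t : ℕ) : ℝ) = 2 ^ 40 - t := by
    rw [Nat.cast_sub (by norm_num at ht; exact ht)]; norm_num
  have hd := div_bounds ((1099511627776 - t) <<< 40) (1099511627776 + t) (by omega)
  have hd0 : (((1099511627776 - t) <<< 40 : ℕ) : ℝ) / ((1099511627776 + t : ℕ) : ℝ) =
      (2 : ℝ) ^ 40 * ((1 - (t : ℝ) / 2 ^ 40) / (1 + (t : ℝ) / 2 ^ 40)) := by
    rw [Nat.shiftLeft_eq, Nat.cast_mul, hsub, Nat.cast_add]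
    have e1 : ((1099511627776 : ℕ) : ℝ) = 2 ^ 40 := by norm_num
    rw [e1]
    field_simp
  rw [hd0, ← hs] at hd
  exact hd

theorem scaled_close {s q : ℝ} (h1 : s ≤ 2 ^ 40 * q) (h2 : 2 ^ 40 * q ≤ s + 1) :
    |s / 2 ^ 40 - q| ≤ 1 / 2 ^ 40 := by
  rw [abs_le]
  constructor
  · rw [le_sub_iff_add_le, neg_add_le_iff_le_add, ← add_div, le_div_iff₀ (by positivity)]
    linarith
  · have : s / 2 ^ 40 ≤ q := by
      rw [div_le_iff₀ (by positivity)]; linarith
    have h5 : (0 : ℝ) < 1 / 2 ^ 40 := by positivity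
    linarith

theorem atT_bound (t : Nat) (ht : t ≤ 2 ^ 40) :
    |(atT t : ℝ) - 2 ^ 40 * arctan (t / 2 ^ 40)| ≤ 4 := by
  have ht0 : (0 : ℝ) ≤ t := Nat.cast_nonneg _
  unfold atT
  by_cases h : t ≤ 458129844906
  · rw [Nat.ble_eq_true_of_le h, cond_true]
    have h' : (t : ℝ) ≤ 458129844906 := by exact_mod_cast h
    refine (ats_bound t (h'.trans (by norm_num))).trans (by norm_num)
  · have hb : Nat.ble t 458129844906 = false := by
      rw [Bool.eq_false_iff]; intro hh; exact h (Nat.le_of_ble_eq_true hh)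
    rw [hb, cond_false]
    have h' : (458129844907 : ℝ) ≤ t := by
      have : 458129844907 ≤ t := by omega
      exact_mod_cast this
    obtain ⟨d1, d2⟩ := ratio_compl t _ ht rfl
    generalize ((1099511627776 - t) <<< 40) / (1099511627776 + t) = s at d1 d2 ⊢
    have hx0 : (0 : ℝ) ≤ t / 2 ^ 40 := by positivity
    have hx1 : (458129844907 : ℝ) / 2 ^ 40 ≤ t / 2 ^ 40 :=
      div_le_div_of_nonneg_right h' (by positivity)
    generalize (t : ℝ) / 2 ^ 40 = x at d1 d2 hx0 hx1 ⊢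
    have hs1 : (s : ℝ) ≤ 5 / 12 * 2 ^ 40 := by
      refine d1.trans ?_
      have : (1 - x) / (1 + x) ≤ 5 / 12 := by
        rw [div_le_iff₀ (by linarith)]
        norm_num at hx1 ⊢
        linarith
      have h2 := mul_le_mul_of_nonneg_left this (by positivity : (0 : ℝ) ≤ 2 ^ 40)
      linarith
    rw [Nat.cast_sub (ats_le s hs1)]
    exact compl_core hx0 (scaled_close d1 d2) (ats_bound s hs1)

theorem atn_bound {y x : Nat} (hx : 0 < x) (hyx : y ≤ x) :
    |(atn y x : ℝ) - 2 ^ 40 * arctan (y / x)| ≤ 5 := by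
  have hx' : (0 : ℝ) < x := by exact_mod_cast hx
  set t : ℕ := (y <<< 40) / x with ht
  have hd := div_bounds (y <<< 40) x hx
  have hd0 : ((y <<< 40 : ℕ) : ℝ) / (x : ℝ) = 2 ^ 40 * (y / x) := by
    rw [Nat.shiftLeft_eq, Nat.cast_mul]; push_cast; ring
  rw [hd0, ← ht] at hd
  have ht1 : t ≤ 2 ^ 40 := by
    rw [ht, Nat.shiftLeft_eq]
    refine Nat.div_le_of_le_mul ?_
    nlinarith
  have h1 := atT_bound t ht1
  have hl := arctan_lip (t / 2 ^ 40) (y / x)
  obtain ⟨v1, v2⟩ := abs_le.1 (hl.trans (scaled_close hd.1 hd.2))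
  have w1 := mul_le_mul_of_nonneg_left v1 (by positivity : (0 : ℝ) ≤ 2 ^ 40)
  have w2 := mul_le_mul_of_nonneg_left v2 (by positivity : (0 : ℝ) ≤ 2 ^ 40)
  have e1 : (2 : ℝ) ^ 40 * (1 / 2 ^ 40) = 1 := by norm_num
  have e2 : (2 : ℝ) ^ 40 * -(1 / 2 ^ 40) = -1 := by norm_num
  rw [e1] at w2
  rw [e2] at w1
  obtain ⟨u1, u2⟩ := abs_le.1 h1
  have : atn y x = atT t := rfl
  rw [this, abs_le]
  constructor
  · linarith
  · linarith

/-- argument of `x + i y`, `x, y ≥ 0` -/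
def th (x y : Nat) : Nat := bif Nat.ble y x then atn y x else 1727108826179 - atn x y

/-- argument of `± x + i y` in `[0, π]` -/
def argU (neg : Bool) (x y : Nat) : Nat := bif neg then 3454217652358 - th x y else th x y

theorem th_bound {x y : Nat} (h : 0 < x ∨ 0 < y) :
    |(th x y : ℝ) - 2 ^ 40 * Complex.arg (⟨x, y⟩ : ℂ)| ≤ 6 := by
  have hx0 : (0 : ℝ) ≤ x := Nat.cast_nonneg _
  have hy0 : (0 : ℝ) ≤ y := Nat.cast_nonneg _
  have hsq : ∀ {u v : ℝ}, 0 < u → 0 ≤ v → arcsin (v / ‖(⟨u, v⟩ : ℂ)‖) = arctan (v / u) := by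
    intro u v hu hv
    rw [arctan_eq_arcsin]
    congr 1
    have hn : ‖(⟨u, v⟩ : ℂ)‖ = u * √(1 + (v / u) ^ 2) := by
      rw [Complex.norm_def, Complex.normSq_mk]
      rw [show u * u + v * v = u ^ 2 * (1 + (v / u) ^ 2) by field_simp,
        Real.sqrt_mul (by positivity), Real.sqrt_sq hu.le]
    rw [hn]
    field_simp
  unfold th
  by_cases hyx : y ≤ x
  · have hx : 0 < x := by omega
    have hx' : (0 : ℝ) < x := by exact_mod_cast hx
    rw [Nat.ble_eq_true_of_le hyx, cond_true, Complex.arg_of_re_nonneg hx0]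
    change |(atn y x : ℝ) - 2 ^ 40 * arcsin ((y : ℝ) / ‖(⟨x, y⟩ : ℂ)‖)| ≤ 6
    rw [hsq hx' hy0]
    exact (atn_bound hx hyx).trans (by norm_num)
  · have hb : Nat.ble y x = false := by
      rw [Bool.eq_false_iff]; intro hh; exact hyx (Nat.le_of_ble_eq_true hh)
    have hy : 0 < y := by omega
    have hxy : x ≤ y := by omega
    have hy' : (0 : ℝ) < y := by exact_mod_cast hy
    rw [hb, cond_false, Complex.arg_of_re_nonneg hx0]
    change |((1727108826179 - atn x y : ℕ) : ℝ) - 2 ^ 40 * arcsin ((y : ℝ) / ‖(⟨x, y⟩ : ℂ)‖)| ≤ 6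
    have ha : arcsin ((y : ℝ) / ‖(⟨x, y⟩ : ℂ)‖) = π / 2 - arctan (x / y) := by
      rcases hx0.eq_or_lt with h0 | h0
      · rw [← h0]
        have hn : ‖(⟨(0 : ℝ), (y : ℝ)⟩ : ℂ)‖ = y := by
          rw [Complex.norm_def, Complex.normSq_mk]
          rw [show (0 : ℝ) * 0 + (y : ℝ) * y = (y : ℝ) ^ 2 by ring, Real.sqrt_sq hy0]
        rw [hn, div_self hy'.ne', zero_div, arctan_zero, arcsin_one, sub_zero]
      · rw [hsq h0 hy0, ← arctan_inv_of_pos (by positivity), inv_div]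
    rw [ha]
    have hb2 := atn_bound hy hxy
    obtain ⟨u1, u2⟩ := abs_le.1 hb2
    obtain ⟨p1, p2⟩ := pi_bounds
    have hle : atn x y ≤ 1727108826179 := by
      have h1 : arctan ((x : ℝ) / y) ≤ 1 := by
        have := arctan_lip ((x : ℝ) / y) 0
        rw [arctan_zero, sub_zero, sub_zero] at this
        refine (le_abs_self _).trans (this.trans ?_)
        rw [abs_of_nonneg (by positivity), div_le_one hy']
        exact_mod_cast hxy
      have h2 : (atn x y : ℝ) ≤ 1727108826179 := by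
        have h3 : 2 ^ 40 * arctan ((x : ℝ) / y) ≤ 2 ^ 40 * 1 :=
          mul_le_mul_of_nonneg_left h1 (by positivity)
        norm_num at h3
        norm_num at u2
        linarith
      exact_mod_cast h2
    rw [Nat.cast_sub hle]
    push_cast
    rw [abs_le]
    constructor
    · linarith
    · linarith

/-- the point `± x + i y` -/
noncomputable def gpt (neg : Bool) (x y : Nat) : ℂ := ⟨bif neg then -(x : ℝ) else x, y⟩

theorem argU_bound {neg : Bool} {x y : Nat} (h : 0 < x ∨ 0 < y) :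
    |(argU neg x y : ℝ) - 2 ^ 40 * Complex.arg (gpt neg x y)| ≤ 7 ∨ (neg = true ∧ x = 0) := by
  unfold argU gpt
  cases neg with
  | false =>
    left
    simp only [cond_false]
    exact (th_bound h).trans (by norm_num)
  | true =>
    rcases Nat.eq_zero_or_pos x with hx | hx
    · right; exact ⟨rfl, hx⟩
    left
    simp only [cond_true]
    have hx' : (0 : ℝ) < x := by exact_mod_cast hx
    have hy0 : (0 : ℝ) ≤ y := Nat.cast_nonneg _
    have ha : Complex.arg (⟨-(x : ℝ), y⟩ : ℂ) = π - Complex.arg (⟨x, y⟩ : ℂ) := by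
      rw [Complex.arg_of_re_neg_of_im_nonneg (by simpa using hx') hy0,
        Complex.arg_of_re_nonneg hx'.le]
      have hn : ‖-(⟨-(x : ℝ), y⟩ : ℂ)‖ = ‖(⟨x, y⟩ : ℂ)‖ := by
        rw [norm_neg, Complex.norm_def, Complex.norm_def, Complex.normSq_mk, Complex.normSq_mk]
        congr 1; ring
      have e : (-(⟨-(x : ℝ), y⟩ : ℂ)).im / ‖(⟨-(x : ℝ), y⟩ : ℂ)‖ = -((y : ℝ) / ‖(⟨x, y⟩ : ℂ)‖) := by
        rw [← hn, norm_neg, Complex.neg_im, neg_div]
      rw [e, arcsin_neg]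
      ring
    rw [ha]
    obtain ⟨u1, u2⟩ := abs_le.1 (th_bound (x := x) (y := y) (Or.inl hx))
    obtain ⟨p1, p2⟩ := pi_bounds
    have hpos := Complex.abs_arg_le_pi_div_two_iff.2 (show (0 : ℝ) ≤ (⟨x, y⟩ : ℂ).re from hx'.le)
    have hle : th x y ≤ 3454217652358 := by
      have h2 : (th x y : ℝ) ≤ 3454217652358 := by
        have h3 := (abs_le.1 hpos).2
        have h4 := mul_le_mul_of_nonneg_left h3 (by positivity : (0 : ℝ) ≤ 2 ^ 40)
        linarith
      exact_mod_cast h2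
    rw [Nat.cast_sub hle]
    push_cast
    rw [abs_le]
    constructor
    · linarith
    · linarith

end Vale.Agent.P030.H476
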