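import Vale.Agent.P030.H476.LogSum

/-!
# Fast kernel logarithm (0.3 ms per value)

`qlo n ≤ 2 ^ 40 * log n ≤ qup n` for all `n`; same values as `lgN`, with call by value, raw
`Nat` operations and a binary search for the bit length.
-/

namespace Vale.Agent.P030.H476

open Real

/-- call by value for the kernel -/
def force (n : Nat) (f : Nat → Nat) : Nat := Nat.rec (f 0) (fun m _ => f (Nat.succ m)) n

theorem force_eq (n : Nat) (f : Nat → Nat) : force n f = f n := by
  cases n <;> rfl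

def fh13 (a : Nat) : Nat :=
  (Nat.add 1099511627776 (Nat.shiftRight (Nat.mul a (Nat.add 366503875925 (Nat.shiftRight
  (Nat.mul a (Nat.add 219902325555 (Nat.shiftRight (Nat.mul a (Nat.add 157073089682
  (Nat.shiftRight (Nat.mul a (Nat.add 122167958641 (Nat.shiftRight (Nat.mul a (Nat.add
  99955602525 (Nat.shiftRight (Nat.mul a (Nat.add 84577817521 (Nat.shiftRight (Nat.mul a
  (Nat.add 73300775185 (Nat.shiftRight (Nat.mul a (Nat.add 64677154575 (Nat.shiftRight
  (Nat.mul a (Nat.add 57869033040 (Nat.shiftRight (Nat.mul a (Nat.add 52357696560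
  (Nat.shiftRight (Nat.mul a (Nat.add 47804853381 (Nat.shiftRight (Nat.mul a 43980465111)
  80))) 80))) 80))) 80))) 80))) 80))) 80))) 80))) 80))) 80))) 80))) 80))

theorem fh13_eq (a : Nat) : fh13 a = h13 a := rfl

def flt (t : Nat) : Nat := Nat.shiftRight (Nat.mul t (force (Nat.mul t t) fh13)) 39

theorem flt_eq (t : Nat) : flt t = lgt t := by
  rw [flt, force_eq, fh13_eq, lgt]; rfl

def flm (m : Nat) : Nat :=
  force (Nat.div (Nat.shiftLeft (Nat.sub m 1099511627776) 40) (Nat.add m 1099511627776)) flt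

theorem flm_eq (m : Nat) : flm m = lgm m := by
  rw [flm, force_eq, flt_eq, lgm]; rfl

def lvl (c s N e : Nat) (k : Nat → Nat → Nat) : Nat :=
  cond (Nat.ble c N) (force (Nat.shiftRight N s) fun N' => k N' (Nat.add e s)) (k N e)

/-- `k (log2 n)` for `0 < n < 2 ^ 128` -/
def fl2 (n : Nat) (k : Nat → Nat) : Nat :=
  lvl 18446744073709551616 64 n 0 fun N e => lvl 4294967296 32 N e fun N e =>
  lvl 65536 16 N e fun N e => lvl 256 8 N e fun N e => lvl 16 4 N e fun N e =>
  lvl 4 2 N e fun N e => lvl 2 1 N e fun _ e => k e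

theorem lvl_spec (n s N e : Nat) (hN : N = n / 2 ^ e) (h1 : 1 ≤ N) (h2 : N < 2 ^ (2 * s)) :
    ∃ N' e', (∀ k, lvl (2 ^ s) s N e k = k N' e') ∧ N' = n / 2 ^ e' ∧ 1 ≤ N' ∧ N' < 2 ^ s := by
  by_cases h : 2 ^ s ≤ N
  · refine ⟨N >>> s, e + s, fun k => ?_, ?_, ?_, ?_⟩
    · rw [lvl, Nat.ble_eq_true_of_le h, cond_true, force_eq]; rfl
    · rw [Nat.shiftRight_eq_div_pow, hN, Nat.div_div_eq_div_mul, pow_add]
    · rw [Nat.shiftRight_eq_div_pow]
      exact (Nat.one_le_div_iff (by positivity)).2 h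
    · rw [Nat.shiftRight_eq_div_pow]
      refine Nat.div_lt_of_lt_mul ?_
      rw [← pow_add, ← two_mul]
      exact h2
  · refine ⟨N, e, fun k => ?_, hN, h1, by omega⟩
    have hb : Nat.ble (2 ^ s) N = false := by
      rw [Bool.eq_false_iff]; intro hh; exact h (Nat.le_of_ble_eq_true hh)
    rw [lvl, hb, cond_false]

theorem fl2_spec (n : Nat) (h0 : 0 < n) (h1 : n < 2 ^ 128) :
    ∃ e, (∀ k, fl2 n k = k e) ∧ Nat.log2 n = e := by
  obtain ⟨N1, e1, k1, a1, b1, c1⟩ := lvl_spec n 64 n 0 (by simp) h0 h1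
  obtain ⟨N2, e2, k2, a2, b2, c2⟩ := lvl_spec n 32 N1 e1 a1 b1 c1
  obtain ⟨N3, e3, k3, a3, b3, c3⟩ := lvl_spec n 16 N2 e2 a2 b2 c2
  obtain ⟨N4, e4, k4, a4, b4, c4⟩ := lvl_spec n 8 N3 e3 a3 b3 c3
  obtain ⟨N5, e5, k5, a5, b5, c5⟩ := lvl_spec n 4 N4 e4 a4 b4 c4
  obtain ⟨N6, e6, k6, a6, b6, c6⟩ := lvl_spec n 2 N5 e5 a5 b5 c5
  obtain ⟨N7, e7, k7, a7, b7, c7⟩ := lvl_spec n 1 N6 e6 a6 b6 c6
  refine ⟨e7, fun k => ?_, ?_⟩
  · rw [fl2]
    rw [show (18446744073709551616 : ℕ) = 2 ^ 64 by norm_num, k1]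
    rw [show (4294967296 : ℕ) = 2 ^ 32 by norm_num, k2]
    rw [show (65536 : ℕ) = 2 ^ 16 by norm_num, k3]
    rw [show (256 : ℕ) = 2 ^ 8 by norm_num, k4]
    rw [show (16 : ℕ) = 2 ^ 4 by norm_num, k5]
    have h4 := k6 fun N e => lvl 2 1 N e fun _ e => k e
    have h2 := k7 fun _ e => k e
    rw [show (2 : ℕ) ^ 2 = 4 by norm_num] at h4
    rw [show (2 : ℕ) ^ 1 = 2 by norm_num] at h2
    rw [h4, h2]
  · have hN : n / 2 ^ e7 = 1 := by omega
    have hp : 0 < 2 ^ e7 := by positivity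
    have h3 : 2 ^ e7 ≤ n := by
      rw [← Nat.one_le_div_iff hp]; omega
    have h4 : n < 2 ^ (e7 + 1) := by
      rw [pow_succ]
      have := Nat.lt_mul_div_succ n hp
      rw [hN] at this
      exact this
    have h5 : 2 ^ Nat.log2 n ≤ n := Nat.log2_self_le h0.ne'
    have h6 : n < 2 ^ (Nat.log2 n + 1) := Nat.lt_log2_self
    have h7 : Nat.log2 n < e7 + 1 := (Nat.pow_lt_pow_iff_right (by norm_num)).1 (h5.trans_lt h4)
    have h8 : e7 < Nat.log2 n + 1 := (Nat.pow_lt_pow_iff_right (by norm_num)).1 (h3.trans_lt h6)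
    omega

def flo (n : Nat) : Nat :=
  fl2 n fun e => Nat.add (Nat.mul e 762123384785)
    (force (Nat.shiftRight (Nat.shiftLeft n 40) e) flm)

def fup (n : Nat) : Nat :=
  fl2 n fun e => Nat.add (Nat.add (Nat.mul e 762123384785)
    (force (Nat.shiftRight (Nat.shiftLeft n 40) e) flm)) (Nat.add e 9)

theorem flo_eq (n : Nat) (h0 : 0 < n) (h1 : n < 2 ^ 128) : flo n = lgN n := by
  obtain ⟨e, h2, h3⟩ := fl2_spec n h0 h1
  rw [flo, h2, force_eq, flm_eq, lgN, h3]; rfl

theorem fup_eq (n : Nat) (h0 : 0 < n) (h1 : n < 2 ^ 128) : fup n = lgN n + (Nat.log2 n + 9) := by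
  obtain ⟨e, h2, h3⟩ := fl2_spec n h0 h1
  rw [fup, h2, force_eq, flm_eq, lgN, h3]; rfl

/-- fast lower value -/
def qlo (n : Nat) : Nat :=
  cond (Nat.ble 340282366920938463463374607431768211456 n) 0 (cond (Nat.beq n 0) 0 (flo n))

/-- fast upper value -/
def qup (n : Nat) : Nat :=
  cond (Nat.ble 340282366920938463463374607431768211456 n) (up n)
    (cond (Nat.beq n 0) 0 (fup n))

theorem qlo_le (n : Nat) : (qlo n : ℝ) ≤ 2 ^ 40 * log n := by
  unfold qlo
  by_cases h : 340282366920938463463374607431768211456 ≤ n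
  · rw [Nat.ble_eq_true_of_le h, cond_true, Nat.cast_zero]
    have : (1 : ℝ) ≤ n := by
      have : 1 ≤ n := le_trans (by norm_num) h
      exact_mod_cast this
    have := Real.log_nonneg this
    positivity
  · have hb : Nat.ble 340282366920938463463374607431768211456 n = false := by
      rw [Bool.eq_false_iff]; intro hh; exact h (Nat.le_of_ble_eq_true hh)
    rw [hb, cond_false]
    rcases Nat.eq_zero_or_pos n with h0 | h0
    · rw [h0, show Nat.beq 0 0 = true from rfl, cond_true, Nat.cast_zero, Real.log_zero, mul_zero]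
    · have h1 : n < 2 ^ 128 := by
        have : (2 : ℕ) ^ 128 = 340282366920938463463374607431768211456 := by norm_num
        rw [this]; exact not_le.1 h
      rw [beq_pos h0, cond_false, flo_eq n h0 h1]
      exact (lgN_bound n h0.ne').1

theorem le_qup (n : Nat) : 2 ^ 40 * log n ≤ (qup n : ℝ) := by
  unfold qup
  by_cases h : 340282366920938463463374607431768211456 ≤ n
  · rw [Nat.ble_eq_true_of_le h, cond_true]
    exact le_up n
  · have hb : Nat.ble 340282366920938463463374607431768211456 n = false := by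
      rw [Bool.eq_false_iff]; intro hh; exact h (Nat.le_of_ble_eq_true hh)
    rw [hb, cond_false]
    rcases Nat.eq_zero_or_pos n with h0 | h0
    · rw [h0, show Nat.beq 0 0 = true from rfl, cond_true, Nat.cast_zero, Real.log_zero, mul_zero]
    · have h1 : n < 2 ^ 128 := by
        have : (2 : ℕ) ^ 128 = 340282366920938463463374607431768211456 := by norm_num
        rw [this]; exact not_le.1 h
      rw [beq_pos h0, cond_false, fup_eq n h0 h1, Nat.cast_add (lgN n)]
      exact (lgN_bound n h0.ne').2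

end Vale.Agent.P030.H476
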