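import Mathlib.Analysis.SpecialFunctions.Log.Deriv
import Mathlib.Data.Nat.Log

/-!
# Kernel friendly enclosures of logarithms of natural numbers

Fixed point with forty binary digits.  `lgN n` is a natural number with
`lgN n ≤ 2 ^ 40 * log n ≤ lgN n + log2 n + 9` for `n ≥ 1`.
-/

namespace Vale.Agent.P030.H476

open Real

theorem div_bounds (a b : Nat) (hb : 0 < b) :
    ((a / b : ℕ) : ℝ) ≤ (a : ℝ) / b ∧ (a : ℝ) / b ≤ ((a / b : ℕ) : ℝ) + 1 := by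
  refine ⟨Nat.cast_div_le, ?_⟩
  have h3 : a ≤ (a / b + 1) * b := by
    have := Nat.lt_div_mul_add (a := a) (b := b) hb
    nlinarith
  have h4 : (a : ℝ) ≤ (((a / b + 1) * b : ℕ) : ℝ) := by exact_mod_cast h3
  rw [div_le_iff₀ (by exact_mod_cast hb)]
  rw [Nat.cast_mul, Nat.cast_add, Nat.cast_one] at h4
  exact h4

theorem shr_bounds (a k : Nat) :
    ((a >>> k : ℕ) : ℝ) ≤ (a : ℝ) / 2 ^ k ∧ (a : ℝ) / 2 ^ k ≤ ((a >>> k : ℕ) : ℝ) + 1 := by
  have h := div_bounds a (2 ^ k) (by positivity)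
  rw [Nat.shiftRight_eq_div_pow]
  rw [Nat.cast_pow, Nat.cast_ofNat] at h
  exact h

/-- Horner scheme with floors, scale `2 ^ 40`, argument scale `2 ^ 80`. -/
def hor : List Nat → Nat → Nat
  | [], _ => 0
  | c :: cs, a => c + (a * hor cs a) >>> 80

/-- exact real counterpart of `hor` on the list of `floor (2 ^ 40 / (2 k + 1))`. -/
noncomputable def horR : Nat → Nat → ℝ → ℝ
  | 0, _, _ => 0
  | K + 1, k, y => 1 / (2 * k + 1) + y * horR K (k + 1) y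

def coef (k : Nat) : Nat := 1099511627776 / (2 * k + 1)

def coefs : Nat → Nat → List Nat
  | 0, _ => []
  | K + 1, k => coef k :: coefs K (k + 1)

theorem hor_bound (K k a : Nat) (ha : (a : ℝ) ≤ 2 ^ 80 / 9) :
    (hor (coefs K k) a : ℝ) ≤ 2 ^ 40 * horR K k (a / 2 ^ 80) ∧
      2 ^ 40 * horR K k (a / 2 ^ 80) ≤ hor (coefs K k) a + 9 / 4 := by
  induction K generalizing k with
  | zero =>
    simp only [hor, horR, coefs]
    norm_num
  | succ K ih =>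
    obtain ⟨h1, h2⟩ := ih (k + 1)
    have hc := div_bounds 1099511627776 (2 * k + 1) (by omega)
    have hc0 : ((1099511627776 : ℕ) : ℝ) / ((2 * k + 1 : ℕ) : ℝ) = 2 ^ 40 / (2 * k + 1) := by
      push_cast; norm_num
    rw [hc0] at hc
    have hc1 : (coef k : ℝ) ≤ 2 ^ 40 / (2 * k + 1) := hc.1
    have hc2 : (2 : ℝ) ^ 40 / (2 * k + 1) ≤ coef k + 1 := hc.2
    set r := hor (coefs K (k + 1)) a with hr
    have hs := shr_bounds (a * r) 80
    have hs0 : ((a * r : ℕ) : ℝ) / 2 ^ 80 = a / 2 ^ 80 * r := by rw [Nat.cast_mul]; ring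
    rw [hs0] at hs
    obtain ⟨hs1, hs2⟩ := hs
    have hy0 : (0 : ℝ) ≤ (a : ℝ) / 2 ^ 80 := by positivity
    have hy1 : (a : ℝ) / 2 ^ 80 ≤ 1 / 9 := by
      rw [div_le_iff₀ (by positivity)]; linarith
    simp only [coefs, hor, horR]
    rw [← hr]
    push_cast
    constructor
    · have e : (2 : ℝ) ^ 40 * (1 / (2 * k + 1) + a / 2 ^ 80 * horR K (k + 1) (a / 2 ^ 80)) =
        2 ^ 40 / (2 * k + 1) + a / 2 ^ 80 * (2 ^ 40 * horR K (k + 1) (a / 2 ^ 80)) := by ring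
      rw [e]
      have := mul_le_mul_of_nonneg_left h1 hy0
      linarith
    · have e : (2 : ℝ) ^ 40 * (1 / (2 * k + 1) + a / 2 ^ 80 * horR K (k + 1) (a / 2 ^ 80)) =
        2 ^ 40 / (2 * k + 1) + a / 2 ^ 80 * (2 ^ 40 * horR K (k + 1) (a / 2 ^ 80)) := by ring
      rw [e]
      have h5 := mul_le_mul_of_nonneg_left h2 hy0
      have h6 : (a : ℝ) / 2 ^ 80 * (r + 9 / 4) ≤ a / 2 ^ 80 * r + 1 / 4 := by nlinarith
      linarith

theorem horR_eq (K k : Nat) (x : ℝ) :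
    x ^ (2 * k + 1) * horR K k (x ^ 2) =
      ∑ j ∈ Finset.range K, 1 / (2 * ((k + j : ℕ) : ℝ) + 1) * x ^ (2 * (k + j) + 1) := by
  induction K generalizing k with
  | zero => simp [horR]
  | succ K ih =>
    rw [Finset.sum_range_succ', horR]
    have h := ih (k + 1)
    have e : x ^ (2 * k + 1) * (1 / (2 * (k : ℝ) + 1) + x ^ 2 * horR K (k + 1) (x ^ 2)) =
      x ^ (2 * (k + 1) + 1) * horR K (k + 1) (x ^ 2) + 1 / (2 * (k : ℝ) + 1) * x ^ (2 * k + 1) := by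
      ring
    rw [e, h]
    congr 1
    refine Finset.sum_congr rfl fun j _ => ?_
    rw [show k + 1 + j = k + (j + 1) by ring]

/-- the artanh series with remainder on `[0, 1/3]`. -/
theorem series (K : Nat) {x : ℝ} (h0 : 0 ≤ x) (h1 : x ≤ 1 / 3) :
    2 * (x * horR K 0 (x ^ 2)) ≤ log ((1 + x) / (1 - x)) ∧
      log ((1 + x) / (1 - x)) ≤ 2 * (x * horR K 0 (x ^ 2)) + 9 / 4 * (1 / 3) ^ (2 * K + 1) := by
  have hs := Real.hasSum_log_sub_log_of_abs_lt_one (x := x) (by rw [abs_of_nonneg h0]; linarith)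
  rw [← Real.log_div (by linarith) (by linarith)] at hs
  have e : 2 * (x * horR K 0 (x ^ 2)) =
      ∑ k ∈ Finset.range K, (2 : ℝ) * (1 / (2 * k + 1)) * x ^ (2 * k + 1) := by
    have := horR_eq K 0 x
    simp only [mul_zero, zero_add, pow_one] at this
    rw [this, Finset.mul_sum]
    refine Finset.sum_congr rfl fun j _ => by ring
  rw [e]
  constructor
  · exact sum_le_hasSum _ (fun k _ => by positivity) hs
  · have ht := (hasSum_nat_add_iff' K).mpr hs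
    have hg : HasSum (fun n : ℕ => 2 * (1 / 3 : ℝ) ^ (2 * K + 1) * ((1 / 9 : ℝ) ^ n))
        (2 * (1 / 3 : ℝ) ^ (2 * K + 1) * (1 - 1 / 9)⁻¹) :=
      (hasSum_geometric_of_lt_one (by norm_num) (by norm_num)).mul_left _
    have hle := hasSum_le (fun n => ?_) ht hg
    · have : 2 * (1 / 3 : ℝ) ^ (2 * K + 1) * (1 - 1 / 9)⁻¹ = 9 / 4 * (1 / 3) ^ (2 * K + 1) := by
        norm_num; ring
      rw [this] at hle
      linarith
    · have h2 : x ^ (2 * (n + K) + 1) ≤ (1 / 3 : ℝ) ^ (2 * (n + K) + 1) := pow_le_pow_left₀ h0 h1 _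
      have h3 : (1 / 3 : ℝ) ^ (2 * (n + K) + 1) = (1 / 3) ^ (2 * K + 1) * (1 / 9) ^ n := by
        rw [show (1 / 9 : ℝ) = (1 / 3) ^ 2 by norm_num, ← pow_mul, ← pow_add]; ring_nf
      have h4 : (1 : ℝ) / (2 * ((n + K : ℕ) : ℝ) + 1) ≤ 1 := by
        rw [div_le_one (by positivity)]
        have : (0 : ℝ) ≤ ((n + K : ℕ) : ℝ) := Nat.cast_nonneg _
        linarith
      have h5 : (0 : ℝ) ≤ 1 / (2 * ((n + K : ℕ) : ℝ) + 1) := by positivity
      calc 2 * (1 / (2 * ((n + K : ℕ) : ℝ) + 1)) * x ^ (2 * (n + K) + 1)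
          ≤ 2 * 1 * (1 / 3 : ℝ) ^ (2 * (n + K) + 1) := by gcongr
        _ = 2 * (1 / 3 : ℝ) ^ (2 * K + 1) * (1 / 9) ^ n := by rw [h3]; ring

/-- the unrolled Horner scheme with thirteen coefficients -/
def h13 (a : Nat) : Nat :=
  1099511627776 + (a * (366503875925 + (a * (219902325555 + (a * (157073089682 + (a *
  (122167958641 + (a * (99955602525 + (a * (84577817521 + (a * (73300775185 + (a *
  (64677154575 + (a * (57869033040 + (a * (52357696560 + (a * (47804853381 + (a *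
  43980465111) >>> 80)) >>> 80)) >>> 80)) >>> 80)) >>> 80)) >>> 80)) >>> 80)) >>> 80))
  >>> 80)) >>> 80)) >>> 80)) >>> 80

theorem h13_eq (a : Nat) : h13 a = hor (coefs 13 0) a := by
  simp [h13, hor, coefs, coef]

/-- `2 ^ 40 * log (m / 2 ^ 40)` for `2 ^ 40 ≤ m ≤ 2 ^ 41`. -/
def lgt (t : Nat) : Nat := (t * h13 (t * t)) >>> 39

def lgm (m : Nat) : Nat := lgt (((m - 1099511627776) <<< 40) / (m + 1099511627776))

/-- lower enclosure of `2 ^ 40 * log n`. -/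
def lgN (n : Nat) : Nat := Nat.log2 n * 762123384785 + lgm ((n <<< 40) >>> Nat.log2 n)

theorem lgt_bound (t : Nat) (ht : (t : ℝ) ≤ 2 ^ 40 / 3) :
    (lgt t : ℝ) ≤ 2 ^ 40 * log ((2 ^ 40 + t) / (2 ^ 40 - t)) ∧
      2 ^ 40 * log ((2 ^ 40 + t) / (2 ^ 40 - t)) ≤ lgt t + 4 := by
  have ht0 : (0 : ℝ) ≤ t := Nat.cast_nonneg _
  set x : ℝ := t / 2 ^ 40 with hx
  have hx0 : 0 ≤ x := by positivity
  have hx1 : x ≤ 1 / 3 := by rw [hx, div_le_iff₀ (by positivity)]; linarith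
  have hq : ((2 : ℝ) ^ 40 + t) / (2 ^ 40 - t) = (1 + x) / (1 - x) := by
    rw [hx, div_eq_div_iff (by linarith) (by
      have : (t : ℝ) / 2 ^ 40 ≤ 1 / 3 := hx1
      linarith)]
    field_simp
  obtain ⟨s1, s2⟩ := series 13 hx0 hx1
  rw [hq]
  have ha : ((t * t : ℕ) : ℝ) ≤ 2 ^ 80 / 9 := by
    push_cast
    nlinarith
  obtain ⟨b1, b2⟩ := hor_bound 13 0 (t * t) ha
  have hxx : ((t * t : ℕ) : ℝ) / 2 ^ 80 = x ^ 2 := by rw [hx]; push_cast; ring
  rw [hxx, ← h13_eq] at b1 b2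
  set H : ℝ := horR 13 0 (x ^ 2) with hH
  set h := h13 (t * t) with hh
  have f := shr_bounds (t * h) 39
  have f0 : ((t * h : ℕ) : ℝ) / 2 ^ 39 = 2 * (x * h) := by rw [hx, Nat.cast_mul]; ring
  rw [f0] at f
  have f1 : (lgt t : ℝ) ≤ 2 * (x * h) := f.1
  have f2 : 2 * (x * h) ≤ lgt t + 1 := f.2
  constructor
  · have h5 : x * h ≤ x * (2 ^ 40 * H) := mul_le_mul_of_nonneg_left b1 hx0
    have h8 := mul_le_mul_of_nonneg_left s1 (by positivity : (0 : ℝ) ≤ 2 ^ 40)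
    have h9 : (2 : ℝ) ^ 40 * (2 * (x * H)) = 2 * (x * (2 ^ 40 * H)) := by ring
    rw [h9] at h8
    linarith
  · have h5 : x * (2 ^ 40 * H) ≤ x * (h + 9 / 4) := mul_le_mul_of_nonneg_left b2 hx0
    have h6 : x * (9 / 4 : ℝ) ≤ 3 / 4 := by nlinarith
    have h7 : (2 : ℝ) ^ 40 * (9 / 4 * (1 / 3) ^ (2 * 13 + 1)) ≤ 1 / 2 := by norm_num
    have h8 := mul_le_mul_of_nonneg_left s2 (by positivity : (0 : ℝ) ≤ 2 ^ 40)
    rw [mul_add] at h8
    have h9 : (2 : ℝ) ^ 40 * (2 * (x * H)) = 2 * (x * (2 ^ 40 * H)) := by ring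
    rw [h9] at h8
    linarith

theorem lgm_bound (m : Nat) (h1 : 2 ^ 40 ≤ m) (h2 : m ≤ 2 ^ 41) :
    (lgm m : ℝ) ≤ 2 ^ 40 * log (m / 2 ^ 40) ∧ 2 ^ 40 * log (m / 2 ^ 40) ≤ lgm m + 8 := by
  have r1 : (2 : ℝ) ^ 40 ≤ m := by exact_mod_cast h1
  have r2 : (m : ℝ) ≤ 2 ^ 41 := by exact_mod_cast h2
  set t : ℕ := ((m - 1099511627776) <<< 40) / (m + 1099511627776) with ht
  have hsub : ((m - 1099511627776 : ℕ) : ℝ) = m - 2 ^ 40 := by
    rw [Nat.cast_sub (by norm_num at h1; exact h1)]; norm_num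
  have hd := div_bounds ((m - 1099511627776) <<< 40) (m + 1099511627776) (by omega)
  have hd0 : (((m - 1099511627776) <<< 40 : ℕ) : ℝ) / ((m + 1099511627776 : ℕ) : ℝ) =
      (m - 2 ^ 40) * 2 ^ 40 / (m + 2 ^ 40) := by
    rw [Nat.shiftLeft_eq, Nat.cast_mul, hsub, Nat.cast_add]
    norm_num
  rw [hd0, ← ht] at hd
  obtain ⟨t1, t2⟩ := hd
  have ht0 : (0 : ℝ) ≤ t := Nat.cast_nonneg _
  have t3 : (t : ℝ) ≤ 2 ^ 40 / 3 := by
    refine t1.trans ?_
    rw [div_le_iff₀ (by positivity)]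
    nlinarith
  obtain ⟨b1, b2⟩ := lgt_bound t t3
  have ey : lgm m = lgt t := rfl
  have c1 : ((2 : ℝ) ^ 40 + t) / (2 ^ 40 - t) ≤ m / 2 ^ 40 := by
    rw [div_le_div_iff₀ (by linarith) (by positivity)]
    rw [le_div_iff₀ (by positivity)] at t1
    nlinarith
  have hpos : 0 < ((2 : ℝ) ^ 40 + t) / (2 ^ 40 - t) := by
    apply div_pos <;> linarith
  have c2 : (m : ℝ) / 2 ^ 40 ≤ ((2 : ℝ) ^ 40 + t) / (2 ^ 40 - t) * (1 + 4 / 2 ^ 40) := by
    rw [div_le_iff₀ (by positivity)] at t2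
    have h5 : (m : ℝ) * (2 ^ 40 - t) ≤ (2 ^ 40 + t) * 2 ^ 40 + (m + 2 ^ 40) := by nlinarith
    have h6 : (m : ℝ) + 2 ^ 40 ≤ (2 ^ 40 + t) * 4 := by nlinarith
    have h7 : (0 : ℝ) < 2 ^ 40 - t := by linarith
    rw [div_mul_eq_mul_div, div_le_div_iff₀ (by positivity) h7]
    nlinarith
  constructor
  · rw [ey]
    refine b1.trans ?_
    have := Real.log_le_log hpos c1
    nlinarith
  · rw [ey]
    have h8 := Real.log_le_log (by positivity : (0 : ℝ) < m / 2 ^ 40) c2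
    rw [Real.log_mul hpos.ne' (by positivity)] at h8
    have h9 : log (1 + 4 / (2 : ℝ) ^ 40) ≤ 4 / 2 ^ 40 := by
      have := Real.log_le_sub_one_of_pos (show (0 : ℝ) < 1 + 4 / 2 ^ 40 by positivity)
      linarith
    have h10 : (2 : ℝ) ^ 40 * (4 / 2 ^ 40) = 4 := by norm_num
    nlinarith

theorem log_two_bound : (762123384785 : ℝ) ≤ 2 ^ 40 * log 2 ∧ 2 ^ 40 * log 2 ≤ 762123384786 := by
  obtain ⟨s1, s2⟩ := series 20 (x := 1 / 3) (by norm_num) le_rfl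
  have e : ((1 : ℝ) + 1 / 3) / (1 - 1 / 3) = 2 := by norm_num
  rw [e] at s1 s2
  have hh := horR_eq 20 0 (1 / 3)
  simp only [mul_zero, zero_add, pow_one] at hh
  rw [hh] at s1 s2
  simp only [Finset.sum_range_succ, Finset.sum_range_zero] at s1 s2
  norm_num at s1 s2
  constructor <;> norm_num <;> linarith

theorem lgN_bound (n : Nat) (hn : n ≠ 0) :
    (lgN n : ℝ) ≤ 2 ^ 40 * log n ∧ 2 ^ 40 * log n ≤ lgN n + (Nat.log2 n + 9 : ℕ) := by
  set e := Nat.log2 n with he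
  have e1 : 2 ^ e ≤ n := Nat.log2_self_le hn
  have e2 : n < 2 ^ (e + 1) := Nat.lt_log2_self
  set m : ℕ := (n <<< 40) >>> e with hm
  have m0 : m = n * 2 ^ 40 / 2 ^ e := by rw [hm, Nat.shiftRight_eq_div_pow, Nat.shiftLeft_eq]
  have hpe : (0 : ℕ) < 2 ^ e := by positivity
  have m1 : 2 ^ 40 ≤ m := by
    rw [m0, Nat.le_div_iff_mul_le hpe]
    nlinarith
  have m2 : m ≤ 2 ^ 41 := by
    rw [m0]
    refine Nat.div_le_of_le_mul ?_
    have : n ≤ 2 ^ e * 2 := by rw [← pow_succ]; omega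
    nlinarith
  obtain ⟨l1, l2⟩ := lgm_bound m m1 m2
  have hq1 : (m : ℝ) / 2 ^ 40 ≤ n / 2 ^ e := by
    rw [m0]
    have := @Nat.cast_div_le ℝ _ _ _ (n * 2 ^ 40) (2 ^ e)
    rw [div_le_iff₀ (by positivity)]
    refine this.trans (le_of_eq ?_)
    push_cast; ring
  have hq2 : (n : ℝ) / 2 ^ e ≤ m / 2 ^ 40 * (1 + 1 / 2 ^ 40) := by
    have h3 : n * 2 ^ 40 ≤ (m + 1) * 2 ^ e := by
      rw [m0]
      have := Nat.lt_div_mul_add (a := n * 2 ^ 40) (b := 2 ^ e) hpe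
      nlinarith
    have h4 : (n : ℝ) * 2 ^ 40 ≤ (m + 1) * 2 ^ e := by exact_mod_cast h3
    have m1' : (2 : ℝ) ^ 40 ≤ m := by exact_mod_cast m1
    rw [div_le_iff₀ (by positivity)]
    have h5 : (m : ℝ) + 1 ≤ m / 2 ^ 40 * (1 + 1 / 2 ^ 40) * 2 ^ 40 := by
      have : (m : ℝ) / 2 ^ 40 * (1 + 1 / 2 ^ 40) * 2 ^ 40 = m + m / 2 ^ 40 := by
        field_simp
      rw [this]
      have : (1 : ℝ) ≤ m / 2 ^ 40 := by rw [le_div_iff₀ (by positivity)]; linarith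
      linarith
    have h6 : (0 : ℝ) < 2 ^ e := by positivity
    nlinarith
  have mpos : (0 : ℝ) < m / 2 ^ 40 := by
    have : (0 : ℝ) < m := by
      have : 0 < m := lt_of_lt_of_le (by norm_num) m1
      exact_mod_cast this
    positivity
  have npos : (0 : ℝ) < n := by
    have : 0 < n := Nat.pos_of_ne_zero hn
    exact_mod_cast this
  have hlog : log (n : ℝ) = e * log 2 + log (n / 2 ^ e) := by
    rw [Real.log_div npos.ne' (by positivity), Real.log_pow]; ring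
  obtain ⟨a1, a2⟩ := log_two_bound
  have eN : (lgN n : ℝ) = e * 762123384785 + lgm m := by
    rw [lgN, ← he, ← hm]; push_cast; ring
  have he0 : (0 : ℝ) ≤ e := Nat.cast_nonneg _
  rw [hlog, eN]
  constructor
  · have := Real.log_le_log mpos hq1
    nlinarith
  · have h8 := Real.log_le_log (by positivity : (0 : ℝ) < n / 2 ^ e) hq2
    rw [Real.log_mul mpos.ne' (by positivity)] at h8
    have h9 : log (1 + 1 / (2 : ℝ) ^ 40) ≤ 1 / 2 ^ 40 := by
      have := Real.log_le_sub_one_of_pos (show (0 : ℝ) < 1 + 1 / 2 ^ 40 by positivity)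
      linarith
    have h10 : (2 : ℝ) ^ 40 * (1 / 2 ^ 40) = 1 := by norm_num
    push_cast
    nlinarith

end Vale.Agent.P030.H476
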