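import Vale.Agent.P030.H476.Fast
import Vale.Agent.P030.H208.Closed

/-!
# Kernel checked energies of mixed tables, all levels together

Entries: Cauchy atoms, mirrored circles, circles centred on the real line, with eight charges.
-/

namespace Vale.Agent.P030.H476.VE

open Real Vale.Agent.P030.H3 Vale.Agent.P030.H208
open scoped ComplexConjugate

/-- entry: `kd = 0` Cauchy atom, `kd = 1` circle with its mirror image, otherwise circle centred
on the real line; `u i` = charge of level `i` plus the offset `O` -/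
structure EA where
  kd : Nat
  x : Nat
  y : Nat
  r : Nat
  u0 : Nat
  u1 : Nat
  u2 : Nat
  u3 : Nat
  u4 : Nat
  u5 : Nat
  u6 : Nat
  u7 : Nat

/-- scales: grid `1 / N` shifted by `X`, total charge `L` of each level, offset `O` -/
structure SE where
  N : Nat
  X : Nat
  L : Nat
  O : Nat

/-! ### natural numbers -/

def mx (a b : Nat) : Nat := cond (Nat.ble a b) b a
def mn (a b : Nat) : Nat := cond (Nat.ble a b) a b

theorem mx_eq (a b : Nat) : mx a b = max a b := by
  unfold mx
  by_cases h : a ≤ b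
  · rw [Nat.ble_eq_true_of_le h, cond_true, max_eq_right h]
  · have : Nat.ble a b = false := by
      rw [Bool.eq_false_iff]; intro hh; exact h (Nat.le_of_ble_eq_true hh)
    rw [this, cond_false, max_eq_left (not_le.1 h).le]

theorem mn_eq (a b : Nat) : mn a b = min a b := by
  unfold mn
  by_cases h : a ≤ b
  · rw [Nat.ble_eq_true_of_le h, cond_true, min_eq_left h]
  · have : Nat.ble a b = false := by
      rw [Bool.eq_false_iff]; intro hh; exact h (Nat.le_of_ble_eq_true hh)
    rw [this, cond_false, min_eq_right (not_le.1 h).le]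

/-- `(a - b) ^ 2` -/
def sq2 (a b : Nat) : Nat :=
  Nat.sub (Nat.add (Nat.mul a a) (Nat.mul b b)) (Nat.mul 2 (Nat.mul a b))

theorem sq2_cast (a b : Nat) : (sq2 a b : ℝ) = ((a : ℝ) - b) ^ 2 := by
  have h : 2 * (a * b) ≤ a * a + b * b := by
    have h0 : (2 * (a * b) : ℤ) ≤ a * a + b * b := by nlinarith [sq_nonneg ((a : ℤ) - b)]
    exact_mod_cast h0
  have e : sq2 a b = a * a + b * b - 2 * (a * b) := rfl
  rw [e, Nat.cast_sub h]
  push_cast
  ring

/-- Newton step for the square root, from above -/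
def nst (n x : Nat) : Nat := Nat.add (Nat.div (Nat.add x (Nat.div n x)) 2) 1

/-- approximate square root, five Newton steps -/
def usq (n : Nat) : Nat :=
  fl2 n fun e => force (Nat.shiftLeft 1 (Nat.add (Nat.shiftRight e 1) 1)) fun x =>
    force (nst n x) fun x => force (nst n x) fun x => force (nst n x) fun x =>
    force (nst n x) fun x => nst n x

/-- checked version: only used if the square is large enough -/
def cusq (n : Nat) : Nat := force (usq n) fun s => cond (Nat.ble n (Nat.mul s s)) s n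

theorem cusq_sq (n : Nat) : n ≤ cusq n * cusq n := by
  unfold cusq
  rw [force_eq]
  by_cases h : n ≤ usq n * usq n
  · have h2 : Nat.ble n (Nat.mul (usq n) (usq n)) = true := Nat.ble_eq_true_of_le h
    rw [h2, cond_true]
    exact h
  · have h2 : Nat.ble n (Nat.mul (usq n) (usq n)) = false := by
      rw [Bool.eq_false_iff]; intro hh; exact h (Nat.le_of_ble_eq_true hh)
    rw [h2, cond_false]
    nlinarith [Nat.zero_le n]

theorem sqrt_le_cusq (n : Nat) : √(n : ℝ) ≤ cusq n := by
  rw [Real.sqrt_le_left (Nat.cast_nonneg _)]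
  have := cusq_sq n
  have h : (n : ℝ) ≤ ((cusq n * cusq n : ℕ) : ℝ) := by exact_mod_cast this
  push_cast at h
  nlinarith

/-- square of `ceil (sqrt n) + r` -/
def usr (n r : Nat) : Nat := force (Nat.add (cusq n) r) fun s => Nat.mul s s

theorem usr_eq (n r : Nat) : usr n r = (cusq n + r) * (cusq n + r) := by
  rw [usr, force_eq]; rfl

def EA.K (a : EA) : Bool := Nat.beq a.kd 0
def EA.C (a : EA) : Bool := Nat.beq a.kd 1

/-- squared distance -/
def fd (a b : EA) : Nat := Nat.add (sq2 a.x b.x) (sq2 a.y b.y)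

/-- squared distance to the mirror image -/
def fc (a b : EA) : Nat :=
  Nat.add (sq2 a.x b.x) (Nat.mul (Nat.add a.y b.y) (Nat.add a.y b.y))

def cc (a b : EA) : Nat := mx (mx (Nat.mul a.r a.r) (Nat.mul b.r b.r)) (fd a b)

def apr (a b : EA) : Bool :=
  Nat.ble (Nat.mul (Nat.add a.r b.r) (Nat.add a.r b.r)) (fd a b) ||
    ((Nat.ble a.r b.r && Nat.ble (fd a b) (sq2 b.r a.r)) ||
      (Nat.ble b.r a.r && Nat.ble (fd a b) (sq2 a.r b.r)))

/-- overlapping circles, upper bound -/
def ov (a b : EA) : Nat := mx (mx (Nat.mul a.r a.r) (Nat.mul b.r b.r)) (usr (fd a b) (mn a.r b.r))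

def lo1 (a b : EA) : Nat :=
  cond a.K (cond b.K (fc a b) (mx (fc a b) (Nat.mul b.r b.r)))
    (cond b.K (mx (fc a b) (Nat.mul a.r a.r)) (cc a b))

def up1 (a b : EA) : Nat :=
  cond a.K
    (cond (b.K || Nat.ble b.r b.y) (fc a b) (usr (fc a b) b.r))
    (cond b.K (cond (Nat.ble a.r a.y) (fc a b) (usr (fc a b) a.r))
      (cond (apr a b) (cc a b) (ov a b)))

/-- lower bound of `2 ^ 40 * (2 J + 2 m m' log N)` -/
def jlo (a b : EA) : Nat :=
  cond (a.C && b.C) (Nat.mul 2 (Nat.add (force (lo1 a b) qlo) (force (fc a b) qlo)))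
    (cond (a.C || b.C) (Nat.mul 2 (force (lo1 a b) qlo)) (force (lo1 a b) qlo))

def jup (a b : EA) : Nat :=
  cond (a.C && b.C) (Nat.mul 2 (Nat.add (force (up1 a b) qup) (force (fc a b) qup)))
    (cond (a.C || b.C) (Nat.mul 2 (force (up1 a b) qup)) (force (up1 a b) qup))

def EA.dot (a b : EA) : Nat :=
  Nat.add (Nat.add (Nat.add (Nat.mul a.u0 b.u0) (Nat.mul a.u1 b.u1))
      (Nat.add (Nat.mul a.u2 b.u2) (Nat.mul a.u3 b.u3)))
    (Nat.add (Nat.add (Nat.mul a.u4 b.u4) (Nat.mul a.u5 b.u5))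
      (Nat.add (Nat.mul a.u6 b.u6) (Nat.mul a.u7 b.u7)))

def EA.tot (a : EA) : Nat :=
  Nat.add (Nat.add (Nat.add a.u0 a.u1) (Nat.add a.u2 a.u3))
    (Nat.add (Nat.add a.u4 a.u5) (Nat.add a.u6 a.u7))

def cA (O : Nat) (a b : EA) : Nat := Nat.add (a.dot b) (Nat.mul 8 (Nat.mul O O))
def cB (O : Nat) (a b : EA) : Nat := Nat.mul O (Nat.add a.tot b.tot)

def tP (O : Nat) (a b : EA) : Nat :=
  force (Nat.sub (cA O a b) (cB O a b)) fun c => cond (Nat.beq c 0) 0 (Nat.mul c (jlo a b))

def tN (O : Nat) (a b : EA) : Nat :=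
  force (Nat.sub (cB O a b) (cA O a b)) fun c => cond (Nat.beq c 0) 0 (Nat.mul c (jup a b))

def rowP (O : Nat) (a : EA) : List EA → Nat
  | [] => 0
  | b :: l => Nat.add (tP O a b) (rowP O a l)

def rowN (O : Nat) (a : EA) : List EA → Nat
  | [] => 0
  | b :: l => Nat.add (tN O a b) (rowN O a l)

/-- the first `k` rows -/
def segP (O : Nat) : Nat → List EA → Nat
  | 0, _ => 0
  | _ + 1, [] => 0
  | k + 1, a :: l => Nat.add (Nat.add (tP O a a) (Nat.mul 2 (rowP O a l))) (segP O k l)

def segN (O : Nat) : Nat → List EA → Nat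
  | 0, _ => 0
  | _ + 1, [] => 0
  | k + 1, a :: l => Nat.add (Nat.add (tN O a a) (Nat.mul 2 (rowN O a l))) (segN O k l)

/-- validity of an entry -/
def EA.ok (a : EA) : Bool :=
  cond a.K (Nat.ble 1 a.y) (Nat.ble 1 a.r && cond a.C (Nat.ble a.r a.y) (Nat.beq a.y 0))

/-! ### charges -/

def EA.u (a : EA) : Fin 8 → ℕ := ![a.u0, a.u1, a.u2, a.u3, a.u4, a.u5, a.u6, a.u7]

/-- charge (numerator) of level `i` -/
noncomputable def EA.q (O : ℕ) (a : EA) (i : Fin 8) : ℝ := (a.u i : ℝ) - O

/-- aggregated coefficient -/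
noncomputable def cf (O : ℕ) (a b : EA) : ℝ := ∑ i, a.q O i * b.q O i

theorem cf_eq (O : ℕ) (a b : EA) : cf O a b = (cA O a b : ℝ) - cB O a b := by
  have e1 : cA O a b = ((a.u0 * b.u0 + a.u1 * b.u1) + (a.u2 * b.u2 + a.u3 * b.u3)) +
      ((a.u4 * b.u4 + a.u5 * b.u5) + (a.u6 * b.u6 + a.u7 * b.u7)) + 8 * (O * O) := rfl
  have e2 : cB O a b = O * ((((a.u0 + a.u1) + (a.u2 + a.u3)) + ((a.u4 + a.u5) + (a.u6 + a.u7))) +
      (((b.u0 + b.u1) + (b.u2 + b.u3)) + ((b.u4 + b.u5) + (b.u6 + b.u7)))) := rfl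
  rw [e1, e2, cf, Fin.sum_univ_eight]
  simp only [EA.q, EA.u, Matrix.cons_val_zero, Matrix.cons_val_one, Matrix.cons_val]
  push_cast
  ring

theorem cf_comm (O : ℕ) (a b : EA) : cf O a b = cf O b a := by
  simp only [cf, mul_comm]

theorem cf_split (O : ℕ) (a b : EA) : cf O a b =
    ((cA O a b - cB O a b : ℕ) : ℝ) - ((cB O a b - cA O a b : ℕ) : ℝ) := by
  rw [cf_eq]
  rcases le_total (cA O a b) (cB O a b) with h | h
  · rw [Nat.sub_eq_zero_of_le h, Nat.cast_sub h]; push_cast; ring
  · rw [Nat.sub_eq_zero_of_le h, Nat.cast_sub h]; push_cast; ring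

theorem tP_eq (O : ℕ) (a b : EA) : tP O a b = (cA O a b - cB O a b) * jlo a b := by
  rw [tP, force_eq]
  change cond (Nat.beq (cA O a b - cB O a b) 0) 0 ((cA O a b - cB O a b) * jlo a b) = _
  generalize cA O a b - cB O a b = c
  rcases Nat.eq_zero_or_pos c with rfl | h
  · simp
  · have : Nat.beq c 0 = false := by
      rw [Bool.eq_false_iff]; intro hh; have := Nat.eq_of_beq_eq_true hh; omega
    rw [this, cond_false]

theorem tN_eq (O : ℕ) (a b : EA) : tN O a b = (cB O a b - cA O a b) * jup a b := by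
  rw [tN, force_eq]
  change cond (Nat.beq (cB O a b - cA O a b) 0) 0 ((cB O a b - cA O a b) * jup a b) = _
  generalize cB O a b - cA O a b = c
  rcases Nat.eq_zero_or_pos c with rfl | h
  · simp
  · have : Nat.beq c 0 = false := by
      rw [Bool.eq_false_iff]; intro hh; have := Nat.eq_of_beq_eq_true hh; omega
    rw [this, cond_false]

/-! ### abstract sums -/

section abstract

variable (O : ℕ) (J : EA → EA → ℝ)

/-- full double sum -/
noncomputable def FF (l : List EA) : ℝ := (l.map fun a => (l.map fun b => cf O a b * J a b).sum).sum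

/-- `J` is symmetric and bounded by the naturals -/
structure Good (l : List EA) : Prop where
  symm : ∀ a ∈ l, ∀ b ∈ l, J a b = J b a
  lo : ∀ a ∈ l, ∀ b ∈ l, (jlo a b : ℝ) ≤ 2 ^ 40 * J a b
  up : ∀ a ∈ l, ∀ b ∈ l, 2 ^ 40 * J a b ≤ (jup a b : ℝ)

variable {O J}

theorem Good.mono {l l' : List EA} (h : Good J l) (hs : ∀ a ∈ l', a ∈ l) : Good J l' :=
  ⟨fun a ha b hb => h.symm a (hs a ha) b (hs b hb), fun a ha b hb => h.lo a (hs a ha) b (hs b hb),
    fun a ha b hb => h.up a (hs a ha) b (hs b hb)⟩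

theorem term_ge {a b : EA} (hlo : (jlo a b : ℝ) ≤ 2 ^ 40 * J a b)
    (hup : 2 ^ 40 * J a b ≤ (jup a b : ℝ)) :
    (tP O a b : ℝ) - tN O a b ≤ 2 ^ 40 * (cf O a b * J a b) := by
  rw [cf_split, tP_eq, tN_eq]
  generalize cA O a b - cB O a b = c
  generalize cB O a b - cA O a b = d
  push_cast
  have h1 := mul_le_mul_of_nonneg_left hlo (Nat.cast_nonneg (α := ℝ) c)
  have h2 := mul_le_mul_of_nonneg_left hup (Nat.cast_nonneg (α := ℝ) d)
  linarith

theorem row_ge {a : EA} {l : List EA} (hlo : ∀ b ∈ l, (jlo a b : ℝ) ≤ 2 ^ 40 * J a b)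
    (hup : ∀ b ∈ l, 2 ^ 40 * J a b ≤ (jup a b : ℝ)) :
    (rowP O a l : ℝ) - rowN O a l ≤ 2 ^ 40 * (l.map fun b => cf O a b * J a b).sum := by
  induction l with
  | nil => simp [rowP, rowN]
  | cons b l ih =>
    have h0 := term_ge (O := O) (hlo b (by simp)) (hup b (by simp))
    have h1 := ih (fun c hc => hlo c (by simp [hc])) (fun c hc => hup c (by simp [hc]))
    have e1 : rowP O a (b :: l) = tP O a b + rowP O a l := rfl
    have e2 : rowN O a (b :: l) = tN O a b + rowN O a l := rfl
    rw [e1, e2, List.map_cons, List.sum_cons]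
    push_cast
    linarith

theorem FF_cons {a : EA} {l : List EA} (h : ∀ b ∈ l, J a b = J b a) :
    FF O J (a :: l) = cf O a a * J a a + 2 * (l.map fun b => cf O a b * J a b).sum + FF O J l := by
  unfold FF
  rw [List.map_cons, List.sum_cons, List.map_cons, List.sum_cons]
  have : (l.map fun c => ((a :: l).map fun b => cf O c b * J c b).sum) =
      l.map fun c => cf O a c * J a c + (l.map fun b => cf O c b * J c b).sum := by
    refine List.map_congr_left fun c hc => ?_
    rw [List.map_cons, List.sum_cons, cf_comm O c a, ← h c hc]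
  rw [this, List.sum_map_add]
  ring

theorem seg_ge (k : ℕ) (l : List EA) (h : Good J l) :
    (segP O k l : ℝ) - segN O k l + 2 ^ 40 * FF O J (l.drop k) ≤ 2 ^ 40 * FF O J l := by
  induction k generalizing l with
  | zero => simp [segP, segN]
  | succ k ih =>
    cases l with
    | nil => simp [segP, segN]
    | cons a l =>
      have h1 := ih l (h.mono (by simp +contextual))
      have h2 := row_ge (O := O) (J := J) (a := a) (l := l)
        (fun b hb => h.lo a (by simp) b (by simp [hb])) (fun b hb => h.up a (by simp) b (by simp [hb]))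
      have h3 := term_ge (O := O) (h.lo a (by simp) a (by simp)) (h.up a (by simp) a (by simp))
      rw [FF_cons (fun b hb => h.symm a (by simp) b (by simp [hb])), List.drop_succ_cons]
      have e1 : segP O (k + 1) (a :: l) = tP O a a + 2 * rowP O a l + segP O k l := rfl
      have e2 : segN O (k + 1) (a :: l) = tN O a a + 2 * rowN O a l + segN O k l := rfl
      rw [e1, e2]
      push_cast
      linarith

end abstract

end Vale.Agent.P030.H476.VE
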