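import Vale.Agent.P030.H476.LogSum
import Vale.Agent.P030.H3.Mutual

/-!
# Kernel checked values of signed circle measures (route N)

Data: a list of circles with natural coordinates; the real measure is `toSC`.
-/

namespace Vale.Agent.P030.H476

open Real Vale.Agent.P030.H3

/-- a circle: centre `(x, y)`, radius `r`, signed weight `qp - qn` (before scaling) -/
structure CA where
  x : Nat
  y : Nat
  r : Nat
  qp : Nat
  qn : Nat

/-- scaling: positions and radii are divided by `N` after the shift by `(X, Y)`,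
weights are divided by `L` -/
structure Sc where
  N : Nat
  L : Nat
  X : Nat
  Y : Nat

def mx (a b : Nat) : Nat := bif Nat.ble a b then b else a

theorem mx_eq (a b : Nat) : mx a b = max a b := by
  unfold mx
  by_cases h : a ≤ b
  · rw [Nat.ble_eq_true_of_le h, cond_true, max_eq_right h]
  · have : Nat.ble a b = false := by
      rw [Bool.eq_false_iff]; intro hh; exact h (Nat.le_of_ble_eq_true hh)
    rw [this, cond_false, max_eq_left (by omega)]

/-- `max (r ^ 2) (r' ^ 2) (distance ^ 2)` -/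
def m2 (x y r x' y' r' : Nat) : Nat := mx (mx (r * r) (r' * r')) (d2 x y x' y')

/-- grid point as a complex number -/
noncomputable def Sc.pt (S : Sc) (x y : Nat) : ℂ :=
  ⟨((x : ℝ) - S.X) / S.N, ((y : ℝ) - S.Y) / S.N⟩

noncomputable def CA.c (S : Sc) (a : CA) : ℂ := S.pt a.x a.y
noncomputable def CA.ρ (S : Sc) (a : CA) : ℝ := (a.r : ℝ) / S.N
noncomputable def CA.q (a : CA) : ℝ := (a.qp : ℝ) - a.qn
noncomputable def CA.w (S : Sc) (a : CA) : ℝ := a.q / S.L

theorem sq_norm_pt (S : Sc) (x y x' y' : Nat) :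
    ‖S.pt x y - S.pt x' y'‖ ^ 2 = (d2 x y x' y' : ℝ) / (S.N : ℝ) ^ 2 := by
  rw [Complex.sq_norm, Complex.normSq_apply, d2_cast]
  simp only [Sc.pt, Complex.sub_re, Complex.sub_im]
  ring

theorem sq_max {u v : ℝ} (hu : 0 ≤ u) (hv : 0 ≤ v) : (max u v) ^ 2 = max (u ^ 2) (v ^ 2) := by
  rcases le_total u v with h | h
  · rw [max_eq_right h, max_eq_right (pow_le_pow_left₀ hu h 2)]
  · rw [max_eq_left h, max_eq_left (pow_le_pow_left₀ hv h 2)]

theorem log_half {t M N : ℝ} (hM : 0 < M) (hN : 0 < N) (h : t ^ 2 = M / N ^ 2) :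
    log t = log M / 2 - log N := by
  have h1 : log (t ^ 2) = log M - log (N ^ 2) := by rw [h, Real.log_div hM.ne' (by positivity)]
  rw [Real.log_pow, Real.log_pow] at h1
  push_cast at h1
  linarith

theorem m2_cast (x y r x' y' r' : Nat) :
    (m2 x y r x' y' r' : ℝ) = max (max ((r : ℝ) ^ 2) ((r' : ℝ) ^ 2)) (d2 x y x' y') := by
  rw [m2, mx_eq, mx_eq, Nat.cast_max, Nat.cast_max, Nat.cast_mul, Nat.cast_mul, ← pow_two, ← pow_two]

theorem log_mutual (S : Sc) (hN : 0 < S.N) (a b : CA) (ha : 0 < a.r) :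
    log (max (max (a.ρ S) (b.ρ S)) ‖a.c S - b.c S‖) =
      log (m2 a.x a.y a.r b.x b.y b.r) / 2 - log S.N := by
  have hN' : (0 : ℝ) < S.N := by exact_mod_cast hN
  have har : (0 : ℝ) < a.r := by exact_mod_cast ha
  have hbr : (0 : ℝ) ≤ b.r := Nat.cast_nonneg _
  have h1 : 0 < a.ρ S := div_pos har hN'
  have h2 : 0 ≤ b.ρ S := div_nonneg hbr hN'.le
  refine log_half ?_ hN' ?_
  · rw [m2_cast]
    exact lt_max_of_lt_left (lt_max_of_lt_left (by positivity))
  · rw [sq_max (le_max_of_le_left h1.le) (norm_nonneg _), sq_max h1.le h2, CA.c, CA.c,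
      sq_norm_pt, m2_cast]
    have hN2 : (0 : ℝ) ≤ (S.N : ℝ) ^ 2 := by positivity
    rw [CA.ρ, CA.ρ, div_pow, div_pow, max_div_div_right hN2, max_div_div_right hN2]

theorem log_pot (S : Sc) (hN : 0 < S.N) (x y : Nat) (b : CA) (hb : 0 < b.r) :
    log (max (b.ρ S) ‖S.pt x y - b.c S‖) =
      log (mx (b.r * b.r) (d2 x y b.x b.y) : ℕ) / 2 - log S.N := by
  have hN' : (0 : ℝ) < S.N := by exact_mod_cast hN
  have hbr : (0 : ℝ) < b.r := by exact_mod_cast hb
  have h1 : 0 < b.ρ S := div_pos hbr hN'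
  have hc : ((mx (b.r * b.r) (d2 x y b.x b.y) : ℕ) : ℝ) = max ((b.r : ℝ) ^ 2) (d2 x y b.x b.y) := by
    rw [mx_eq, Nat.cast_max, Nat.cast_mul, ← pow_two]
  refine log_half ?_ hN' ?_
  · rw [hc]; exact lt_max_of_lt_left (by positivity)
  · rw [sq_max h1.le (norm_nonneg _), CA.c, sq_norm_pt, hc]
    have hN2 : (0 : ℝ) ≤ (S.N : ℝ) ^ 2 := by positivity
    rw [CA.ρ, div_pow, max_div_div_right hN2]

/-! ### the quadratic form -/

/-- `c * lo M`, skipping the logarithm if `c = 0` -/
def tlo (c M : Nat) : Nat := bif Nat.beq c 0 then 0 else c * lo M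
def tup' (c M : Nat) : Nat := bif Nat.beq c 0 then 0 else c * up M

theorem tlo_le (c M : Nat) : (tlo c M : ℝ) ≤ 2 ^ 40 * (c * log M) := by
  unfold tlo
  rcases Nat.eq_zero_or_pos c with h | h
  · subst h
    rw [show Nat.beq 0 0 = true from rfl, cond_true]
    simp
  · rw [beq_pos h, cond_false, Nat.cast_mul]
    have := mul_le_mul_of_nonneg_left (lo_le M) (Nat.cast_nonneg c : (0 : ℝ) ≤ c)
    linarith

theorem le_tup (c M : Nat) : 2 ^ 40 * (c * log M) ≤ (tup' c M : ℝ) := by
  unfold tup'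
  rcases Nat.eq_zero_or_pos c with h | h
  · subst h
    rw [show Nat.beq 0 0 = true from rfl, cond_true]
    simp
  · rw [beq_pos h, cond_false, Nat.cast_mul]
    have := mul_le_mul_of_nonneg_left (le_up M) (Nat.cast_nonneg c : (0 : ℝ) ≤ c)
    linarith

def rP (x y r qp qn : Nat) : List CA → Nat
  | [] => 0
  | b :: l => tlo (qp * b.qp + qn * b.qn) (m2 x y r b.x b.y b.r) + rP x y r qp qn l

def rN (x y r qp qn : Nat) : List CA → Nat
  | [] => 0
  | b :: l => tup' (qp * b.qn + qn * b.qp) (m2 x y r b.x b.y b.r) + rN x y r qp qn l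

noncomputable def gR (a b : CA) : ℝ := a.q * b.q * log (m2 a.x a.y a.r b.x b.y b.r)

theorem gR_comm (a b : CA) : gR a b = gR b a := by
  have h : m2 a.x a.y a.r b.x b.y b.r = m2 b.x b.y b.r a.x a.y a.r := by
    have e1 : d2 a.x a.y b.x b.y = d2 b.x b.y a.x a.y := by
      have := d2_cast a.x a.y b.x b.y
      have h2 := d2_cast b.x b.y a.x a.y
      have h3 : (d2 a.x a.y b.x b.y : ℝ) = d2 b.x b.y a.x a.y := by rw [this, h2]; ring
      exact_mod_cast h3
    rw [m2, m2, mx_eq, mx_eq, mx_eq, mx_eq, e1, max_comm (a.r * a.r)]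
  rw [gR, gR, h]; ring

theorem row_ge (a : CA) (l : List CA) :
    (rP a.x a.y a.r a.qp a.qn l : ℝ) - rN a.x a.y a.r a.qp a.qn l ≤
      2 ^ 40 * (l.map (gR a)).sum := by
  induction l with
  | nil => simp [rP, rN]
  | cons b l ih =>
    rw [rP, rN, List.map_cons, List.sum_cons]
    have h1 := tlo_le (a.qp * b.qp + a.qn * b.qn) (m2 a.x a.y a.r b.x b.y b.r)
    have h2 := le_tup (a.qp * b.qn + a.qn * b.qp) (m2 a.x a.y a.r b.x b.y b.r)
    simp only [gR, CA.q] at ih ⊢
    push_cast at h1 h2 ih ⊢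
    linarith

/-- lower value, positive and negative part, of `∑_a ∑_b q_a q_b log m2` -/
def enPos : List CA → Nat
  | [] => 0
  | a :: l => (tlo (a.qp * a.qp + a.qn * a.qn) (m2 a.x a.y a.r a.x a.y a.r)
      + 2 * rP a.x a.y a.r a.qp a.qn l) + enPos l

def enNeg : List CA → Nat
  | [] => 0
  | a :: l => (tup' (a.qp * a.qn + a.qn * a.qp) (m2 a.x a.y a.r a.x a.y a.r)
      + 2 * rN a.x a.y a.r a.qp a.qn l) + enNeg l

theorem sum_sym (f : CA → CA → ℝ) (hf : ∀ a b, f a b = f b a) (a : CA) (l : List CA) :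
    ((a :: l).map fun k => ((a :: l).map (f k)).sum).sum =
      f a a + 2 * (l.map (f a)).sum + (l.map fun k => (l.map (f k)).sum).sum := by
  rw [List.map_cons, List.sum_cons, List.map_cons, List.sum_cons]
  have : (l.map fun k => ((a :: l).map (f k)).sum) = l.map fun k => f a k + (l.map (f k)).sum := by
    refine List.map_congr_left fun k _ => ?_
    rw [List.map_cons, List.sum_cons, hf k a]
  rw [this, List.sum_map_add]
  ring

theorem en_ge_list (l : List CA) :
    (enPos l : ℝ) - enNeg l ≤ 2 ^ 40 * (l.map fun k => (l.map (gR k)).sum).sum := by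
  induction l with
  | nil => simp [enPos, enNeg]
  | cons a l ih =>
    rw [sum_sym gR gR_comm, enPos, enNeg]
    have h0 := row_ge a l
    have h1 := tlo_le (a.qp * a.qp + a.qn * a.qn) (m2 a.x a.y a.r a.x a.y a.r)
    have h2 := le_tup (a.qp * a.qn + a.qn * a.qp) (m2 a.x a.y a.r a.x a.y a.r)
    have h3 : gR a a = (((a.qp * a.qp + a.qn * a.qn : ℕ) : ℝ) - ((a.qp * a.qn + a.qn * a.qp : ℕ) : ℝ))
        * log (m2 a.x a.y a.r a.x a.y a.r) := by
      simp only [gR, CA.q]; push_cast; ring
    rw [h3]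
    push_cast at h1 h2 ⊢
    linarith

/-! ### the real measure -/

def sumqp : List CA → Nat
  | [] => 0
  | a :: l => a.qp + sumqp l

def sumqn : List CA → Nat
  | [] => 0
  | a :: l => a.qn + sumqn l

def allpos : List CA → Bool
  | [] => true
  | a :: l => Nat.ble 1 a.r && allpos l

/-- sanity of the data: scales positive, radii positive, total weight one -/
def okD (S : Sc) (l : List CA) : Bool :=
  (Nat.ble 1 S.N && Nat.ble 1 S.L) && (allpos l && Nat.beq (sumqp l) (sumqn l + S.L))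

theorem okD_N {S : Sc} {l : List CA} (h : okD S l = true) : 0 < S.N := by
  simp only [okD, Bool.and_eq_true] at h
  exact Nat.le_of_ble_eq_true h.1.1

theorem okD_L {S : Sc} {l : List CA} (h : okD S l = true) : 0 < S.L := by
  simp only [okD, Bool.and_eq_true] at h
  exact Nat.le_of_ble_eq_true h.1.2

theorem allpos_mem {l : List CA} (h : allpos l = true) {a : CA} (ha : a ∈ l) : 0 < a.r := by
  induction l with
  | nil => simp at ha
  | cons b l ih =>
    rw [allpos, Bool.and_eq_true] at h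
    rcases List.mem_cons.1 ha with rfl | h2
    · exact Nat.le_of_ble_eq_true h.1
    · exact ih h.2 h2

theorem okD_r {S : Sc} {l : List CA} (h : okD S l = true) {a : CA} (ha : a ∈ l) : 0 < a.r := by
  simp only [okD, Bool.and_eq_true] at h
  exact allpos_mem h.2.1 ha

theorem sum_q (l : List CA) : (l.map CA.q).sum = (sumqp l : ℝ) - sumqn l := by
  induction l with
  | nil => simp [sumqp, sumqn]
  | cons a l ih =>
    rw [List.map_cons, List.sum_cons, ih, sumqp, sumqn, CA.q]; push_cast; ring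

theorem okD_sum {S : Sc} {l : List CA} (h : okD S l = true) : (l.map CA.q).sum = S.L := by
  simp only [okD, Bool.and_eq_true] at h
  have h2 := Nat.eq_of_beq_eq_true h.2.2
  rw [sum_q, h2]; push_cast; ring

theorem sum_fin (l : List CA) (f : CA → ℝ) : ∑ k : Fin l.length, f (l.get k) = (l.map f).sum := by
  rw [← List.sum_ofFn]
  have h : List.map f (List.ofFn l.get) = List.ofFn (f ∘ l.get) := List.map_ofFn
  rw [List.ofFn_get] at h
  rw [h]
  rfl

/-- the signed circle measure of the data -/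
noncomputable def toSC (S : Sc) (l : List CA) (h : okD S l = true) : SCirc (Fin l.length) where
  w k := (l.get k).w S
  c k := (l.get k).c S
  ρ k := (l.get k).ρ S
  w_sum := by
    have hL : (0 : ℝ) < S.L := by exact_mod_cast okD_L h
    rw [sum_fin l (fun a => a.w S)]
    have : (l.map fun a => a.w S) = l.map fun a => a.q * (S.L : ℝ)⁻¹ := by
      refine List.map_congr_left fun a _ => ?_
      rw [CA.w, div_eq_mul_inv]
    rw [this, List.sum_map_mul_right, okD_sum h, mul_inv_cancel₀ hL.ne']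
  ρ_pos k := by
    have h1 : (0 : ℝ) < (l.get k).r := by exact_mod_cast okD_r h (List.get_mem l k)
    have h2 : (0 : ℝ) < S.N := by exact_mod_cast okD_N h
    exact div_pos h1 h2

/-! ### the apartness check -/

def apart (a b : CA) : Bool :=
  Nat.ble ((a.r + b.r) * (a.r + b.r)) (d2 a.x a.y b.x b.y) ||
    ((Nat.ble a.r b.r && Nat.ble (d2 a.x a.y b.x b.y) ((b.r - a.r) * (b.r - a.r))) ||
      (Nat.ble b.r a.r && Nat.ble (d2 a.x a.y b.x b.y) ((a.r - b.r) * (a.r - b.r))))

def okA (a b : CA) : Bool := Nat.beq (a.qp * b.qn + a.qn * b.qp) 0 || apart a b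

def okRow (a : CA) : List CA → Bool
  | [] => true
  | b :: l => okA a b && okRow a l

def okAll : List CA → Bool
  | [] => true
  | a :: l => okRow a l && okAll l

theorem okRow_mem {a : CA} {l : List CA} (h : okRow a l = true) {b : CA} (hb : b ∈ l) :
    okA a b = true := by
  induction l with
  | nil => simp at hb
  | cons c l ih =>
    rw [okRow, Bool.and_eq_true] at h
    rcases List.mem_cons.1 hb with rfl | h2
    · exact h.1
    · exact ih h.2 h2

theorem okAll_pairwise {l : List CA} (h : okAll l = true) :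
    l.Pairwise fun a b => okA a b = true := by
  induction l with
  | nil => exact List.Pairwise.nil
  | cons a l ih =>
    rw [okAll, Bool.and_eq_true] at h
    exact List.pairwise_cons.2 ⟨fun b hb => okRow_mem h.1 hb, ih h.2⟩

theorem dist_eq (S : Sc) (hN : 0 < S.N) (a b : CA) :
    ‖a.c S - b.c S‖ = √(d2 a.x a.y b.x b.y) / S.N := by
  have hN' : (0 : ℝ) < S.N := by exact_mod_cast hN
  rw [← Real.sqrt_sq (norm_nonneg (a.c S - b.c S)), CA.c, CA.c, sq_norm_pt,
    Real.sqrt_div (Nat.cast_nonneg _), Real.sqrt_sq hN'.le]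

theorem apart_of (S : Sc) (hN : 0 < S.N) {a b : CA} (h : apart a b = true) :
    Apart (a.c S) (a.ρ S) (b.c S) (b.ρ S) := by
  have hN' : (0 : ℝ) < S.N := by exact_mod_cast hN
  rw [Apart, dist_eq S hN, CA.ρ, CA.ρ]
  simp only [apart, Bool.or_eq_true, Bool.and_eq_true] at h
  rcases h with h | h | h
  · left
    have h1 := Nat.le_of_ble_eq_true h
    rw [← add_div]
    refine div_le_div_of_nonneg_right ?_ hN'.le
    refine Real.le_sqrt_of_sq_le ?_
    have : (((a.r + b.r) * (a.r + b.r) : ℕ) : ℝ) ≤ d2 a.x a.y b.x b.y := by exact_mod_cast h1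
    push_cast at this
    nlinarith
  · right; left
    have h1 := Nat.le_of_ble_eq_true h.1
    have h2 := Nat.le_of_ble_eq_true h.2
    rw [← add_div]
    refine div_le_div_of_nonneg_right ?_ hN'.le
    have h3 : (d2 a.x a.y b.x b.y : ℝ) ≤ ((b.r : ℝ) - a.r) ^ 2 := by
      have : (d2 a.x a.y b.x b.y : ℝ) ≤ (((b.r - a.r) * (b.r - a.r) : ℕ) : ℝ) := by exact_mod_cast h2
      rw [Nat.cast_mul, Nat.cast_sub h1] at this
      nlinarith
    have h4 : (0 : ℝ) ≤ (b.r : ℝ) - a.r := by
      have : (a.r : ℝ) ≤ b.r := by exact_mod_cast h1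
      linarith
    have := Real.sqrt_le_sqrt h3
    rw [Real.sqrt_sq h4] at this
    linarith
  · right; right
    have h1 := Nat.le_of_ble_eq_true h.1
    have h2 := Nat.le_of_ble_eq_true h.2
    rw [← add_div]
    refine div_le_div_of_nonneg_right ?_ hN'.le
    have h3 : (d2 a.x a.y b.x b.y : ℝ) ≤ ((a.r : ℝ) - b.r) ^ 2 := by
      have : (d2 a.x a.y b.x b.y : ℝ) ≤ (((a.r - b.r) * (a.r - b.r) : ℕ) : ℝ) := by exact_mod_cast h2
      rw [Nat.cast_mul, Nat.cast_sub h1] at this
      nlinarith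
    have h4 : (0 : ℝ) ≤ (a.r : ℝ) - b.r := by
      have : (b.r : ℝ) ≤ a.r := by exact_mod_cast h1
      linarith
    have := Real.sqrt_le_sqrt h3
    rw [Real.sqrt_sq h4] at this
    linarith

theorem apart_symm {c c' : ℂ} {ρ ρ' : ℝ} (h : Apart c ρ c' ρ') : Apart c' ρ' c ρ := by
  rw [Apart, norm_sub_rev c' c]
  rcases h with h | h | h
  · left; linarith
  · right; right; exact h
  · right; left; exact h

/-- **lower bound of the energy**, everything on the left is checked in the kernel -/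
theorem en_ge (S : Sc) (l : List CA) (h : okD S l = true) (ha : okAll l = true) {p n : Nat}
    (hp : Nat.ble p (enPos l) = true) (hn : Nat.ble (enNeg l) n = true) :
    ((p : ℝ) - n) / (2 * (S.L : ℝ) ^ 2 * 2 ^ 40) - log S.N ≤ (toSC S l h).En := by
  have hN : (0 : ℝ) < S.N := by exact_mod_cast okD_N h
  have hL : (0 : ℝ) < S.L := by exact_mod_cast okD_L h
  have hpw := okAll_pairwise ha
  refine le_trans ?_ ((toSC S l h).le_En ?_)
  · have e1 : ∀ k j : Fin l.length, (toSC S l h).w k * (toSC S l h).w j *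
        log (max (max ((toSC S l h).ρ k) ((toSC S l h).ρ j)) ‖(toSC S l h).c k - (toSC S l h).c j‖) =
        gR (l.get k) (l.get j) * (1 / (2 * (S.L : ℝ) ^ 2)) -
          (l.get k).q * ((l.get j).q * (log S.N / (S.L : ℝ) ^ 2)) := by
      intro k j
      have e2 := log_mutual S (okD_N h) (l.get k) (l.get j) (okD_r h (List.get_mem l k))
      change (l.get k).w S * (l.get j).w S * log (max (max ((l.get k).ρ S) ((l.get j).ρ S))
        ‖(l.get k).c S - (l.get j).c S‖) = _
      rw [e2, CA.w, CA.w, gR]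
      field_simp
    have e3 : ∑ k, ∑ j, (toSC S l h).w k * (toSC S l h).w j *
        log (max (max ((toSC S l h).ρ k) ((toSC S l h).ρ j)) ‖(toSC S l h).c k - (toSC S l h).c j‖) =
        (l.map fun k => (l.map (gR k)).sum).sum * (1 / (2 * (S.L : ℝ) ^ 2)) - log S.N := by
      rw [Finset.sum_congr rfl fun k _ => Finset.sum_congr rfl fun j _ => e1 k j]
      simp only [Finset.sum_sub_distrib]
      congr 1
      · have e4 : ∀ k : Fin l.length, ∑ j : Fin l.length,
            gR (l.get k) (l.get j) * (1 / (2 * (S.L : ℝ) ^ 2)) =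
            (l.map (gR (l.get k))).sum * (1 / (2 * (S.L : ℝ) ^ 2)) := by
          intro k
          rw [← Finset.sum_mul, sum_fin l (gR (l.get k))]
        rw [Finset.sum_congr rfl fun k _ => e4 k, ← Finset.sum_mul,
          sum_fin l (fun a => (l.map (gR a)).sum)]
      · have e5 : ∀ k : Fin l.length, ∑ j : Fin l.length,
            (l.get k).q * ((l.get j).q * (log S.N / (S.L : ℝ) ^ 2)) =
            (l.get k).q * (S.L * (log S.N / (S.L : ℝ) ^ 2)) := by
          intro k
          rw [← Finset.mul_sum, ← Finset.sum_mul, sum_fin l CA.q, okD_sum h]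
        rw [Finset.sum_congr rfl fun k _ => e5 k, ← Finset.sum_mul, sum_fin l CA.q, okD_sum h]
        field_simp
    rw [e3]
    have h1 := en_ge_list l
    have h2 : (p : ℝ) ≤ enPos l := by exact_mod_cast Nat.le_of_ble_eq_true hp
    have h3 : (enNeg l : ℝ) ≤ n := by exact_mod_cast Nat.le_of_ble_eq_true hn
    have h4 : ((p : ℝ) - n) / (2 * (S.L : ℝ) ^ 2 * 2 ^ 40) ≤
        (l.map fun k => (l.map (gR k)).sum).sum * (1 / (2 * (S.L : ℝ) ^ 2)) := by
      rw [div_le_iff₀ (by positivity)]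
      have : (l.map fun k => (l.map (gR k)).sum).sum * (1 / (2 * (S.L : ℝ) ^ 2)) *
          (2 * (S.L : ℝ) ^ 2 * 2 ^ 40) = 2 ^ 40 * (l.map fun k => (l.map (gR k)).sum).sum := by
        field_simp
      rw [this]
      linarith
    linarith
  · intro k j hkj
    have hkj' : (l.get k).w S * (l.get j).w S < 0 := hkj
    have hne : k ≠ j := by
      rintro rfl
      nlinarith [sq_nonneg ((l.get k).w S)]
    have hok : ∀ i i' : Fin l.length, i < i' → (l.get i).w S * (l.get i').w S < 0 →
        Apart ((l.get i).c S) ((l.get i).ρ S) ((l.get i').c S) ((l.get i').ρ S) := by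
      intro i i' hi hneg
      have h5 : okA (l.get i) (l.get i') = true :=
        (List.pairwise_iff_get.1 hpw) i i' hi
      rw [okA, Bool.or_eq_true] at h5
      rcases h5 with h5 | h5
      · exfalso
        have h6 := Nat.eq_of_beq_eq_true h5
        have h7 : (l.get i).qp * (l.get i').qn = 0 ∧ (l.get i).qn * (l.get i').qp = 0 := by
          constructor <;> omega
        have h8 : (((l.get i).qp : ℝ) * (l.get i').qn) = 0 := by exact_mod_cast h7.1
        have h9 : (((l.get i).qn : ℝ) * (l.get i').qp) = 0 := by exact_mod_cast h7.2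
        have h10 : 0 ≤ (l.get i).w S * (l.get i').w S := by
          rw [CA.w, CA.w, CA.q, CA.q]
          have : (((l.get i).qp : ℝ) - (l.get i).qn) / S.L * ((((l.get i').qp : ℝ) - (l.get i').qn) / S.L) =
            (((l.get i).qp : ℝ) * (l.get i').qp + (l.get i).qn * (l.get i').qn
              - (l.get i).qp * (l.get i').qn - (l.get i).qn * (l.get i').qp) / (S.L : ℝ) ^ 2 := by
            field_simp; ring
          rw [this, h8, h9, sub_zero, sub_zero]
          positivity
        linarith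
      · exact apart_of S (okD_N h) h5
    rcases lt_or_gt_of_ne hne with h11 | h11
    · exact hok k j h11 hkj'
    · exact apart_symm (hok j k h11 (by rw [mul_comm]; exact hkj'))

/-! ### values of the potential at grid points -/

def uP (x y : Nat) : List CA → Nat
  | [] => 0
  | b :: l => tup' b.qp (mx (b.r * b.r) (d2 x y b.x b.y)) + uP x y l

def uN (x y : Nat) : List CA → Nat
  | [] => 0
  | b :: l => tlo b.qn (mx (b.r * b.r) (d2 x y b.x b.y)) + uN x y l

def vP (x y : Nat) : List CA → Nat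
  | [] => 0
  | b :: l => tlo b.qp (mx (b.r * b.r) (d2 x y b.x b.y)) + vP x y l

def vN (x y : Nat) : List CA → Nat
  | [] => 0
  | b :: l => tup' b.qn (mx (b.r * b.r) (d2 x y b.x b.y)) + vN x y l

noncomputable def uR (x y : Nat) (b : CA) : ℝ :=
  b.q * log (mx (b.r * b.r) (d2 x y b.x b.y) : ℕ)

theorem u_le_list (x y : Nat) (l : List CA) :
    2 ^ 40 * (l.map (uR x y)).sum ≤ (uP x y l : ℝ) - uN x y l := by
  induction l with
  | nil => simp [uP, uN]
  | cons b l ih =>
    rw [uP, uN, List.map_cons, List.sum_cons]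
    have h1 := le_tup b.qp (mx (b.r * b.r) (d2 x y b.x b.y))
    have h2 := tlo_le b.qn (mx (b.r * b.r) (d2 x y b.x b.y))
    simp only [uR, CA.q] at ih ⊢
    push_cast at ih ⊢
    linarith

theorem le_u_list (x y : Nat) (l : List CA) :
    (vP x y l : ℝ) - vN x y l ≤ 2 ^ 40 * (l.map (uR x y)).sum := by
  induction l with
  | nil => simp [vP, vN]
  | cons b l ih =>
    rw [vP, vN, List.map_cons, List.sum_cons]
    have h1 := tlo_le b.qp (mx (b.r * b.r) (d2 x y b.x b.y))
    have h2 := le_tup b.qn (mx (b.r * b.r) (d2 x y b.x b.y))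
    simp only [uR, CA.q] at ih ⊢
    push_cast at ih ⊢
    linarith

theorem U_eq (S : Sc) (l : List CA) (h : okD S l = true) (x y : Nat) :
    (toSC S l h).U (S.pt x y) = (l.map (uR x y)).sum / (2 * S.L) - log S.N := by
  have hL : (0 : ℝ) < S.L := by exact_mod_cast okD_L h
  have e1 : ∀ k : Fin l.length, (toSC S l h).w k *
      log (max ((toSC S l h).ρ k) ‖S.pt x y - (toSC S l h).c k‖) =
      uR x y (l.get k) * (1 / (2 * (S.L : ℝ))) - (l.get k).q * (log S.N / S.L) := by
    intro k
    change (l.get k).w S * log (max ((l.get k).ρ S) ‖S.pt x y - (l.get k).c S‖) = _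
    rw [log_pot S (okD_N h) x y (l.get k) (okD_r h (List.get_mem l k)), CA.w, uR]
    field_simp
  rw [SCirc.U, Finset.sum_congr rfl fun k _ => e1 k, Finset.sum_sub_distrib, ← Finset.sum_mul,
    ← Finset.sum_mul, sum_fin l (uR x y), sum_fin l CA.q, okD_sum h]
  field_simp

/-- upper bound of the potential at a grid point -/
theorem U_le (S : Sc) (l : List CA) (h : okD S l = true) (x y : Nat) {p n : Nat}
    (hp : Nat.ble (uP x y l) p = true) (hn : Nat.ble n (uN x y l) = true) :
    (toSC S l h).U (S.pt x y) ≤ ((p : ℝ) - n) / (2 * S.L * 2 ^ 40) - log S.N := by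
  have hL : (0 : ℝ) < S.L := by exact_mod_cast okD_L h
  rw [U_eq]
  have h1 := u_le_list x y l
  have h2 : (uP x y l : ℝ) ≤ p := by exact_mod_cast Nat.le_of_ble_eq_true hp
  have h3 : (n : ℝ) ≤ uN x y l := by exact_mod_cast Nat.le_of_ble_eq_true hn
  have : (l.map (uR x y)).sum / (2 * S.L) ≤ ((p : ℝ) - n) / (2 * S.L * 2 ^ 40) := by
    rw [div_le_div_iff₀ (by positivity) (by positivity)]
    have h4 : 2 ^ 40 * (l.map (uR x y)).sum ≤ (p : ℝ) - n := by linarith
    have := mul_le_mul_of_nonneg_right h4 (by positivity : (0 : ℝ) ≤ 2 * S.L)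
    linarith
  linarith

/-- lower bound of the potential at a grid point -/
theorem le_U (S : Sc) (l : List CA) (h : okD S l = true) (x y : Nat) {p n : Nat}
    (hp : Nat.ble p (vP x y l) = true) (hn : Nat.ble (vN x y l) n = true) :
    ((p : ℝ) - n) / (2 * S.L * 2 ^ 40) - log S.N ≤ (toSC S l h).U (S.pt x y) := by
  have hL : (0 : ℝ) < S.L := by exact_mod_cast okD_L h
  rw [U_eq]
  have h1 := le_u_list x y l
  have h2 : (p : ℝ) ≤ vP x y l := by exact_mod_cast Nat.le_of_ble_eq_true hp
  have h3 : (vN x y l : ℝ) ≤ n := by exact_mod_cast Nat.le_of_ble_eq_true hn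
  have : ((p : ℝ) - n) / (2 * S.L * 2 ^ 40) ≤ (l.map (uR x y)).sum / (2 * S.L) := by
    rw [div_le_div_iff₀ (by positivity) (by positivity)]
    have h4 : (p : ℝ) - n ≤ 2 ^ 40 * (l.map (uR x y)).sum := by linarith
    have := mul_le_mul_of_nonneg_right h4 (by positivity : (0 : ℝ) ≤ 2 * S.L)
    linarith
  linarith

/-! ### values on small discs -/

/-- every circle either contains the disc of radius `R` round `(x, y)` or its centre is at
distance at least `K` -/
def okR (x y R K : Nat) : List CA → Bool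
  | [] => true
  | b :: l => ((Nat.ble R b.r && Nat.ble (d2 x y b.x b.y) ((b.r - R) * (b.r - R))) ||
      Nat.ble (K * K) (d2 x y b.x b.y)) && okR x y R K l

theorem okR_mem {x y R K : Nat} {l : List CA} (h : okR x y R K l = true) {b : CA} (hb : b ∈ l) :
    (R ≤ b.r ∧ d2 x y b.x b.y ≤ (b.r - R) * (b.r - R)) ∨ K * K ≤ d2 x y b.x b.y := by
  induction l with
  | nil => simp at hb
  | cons c l ih =>
    rw [okR, Bool.and_eq_true, Bool.or_eq_true, Bool.and_eq_true] at h
    rcases List.mem_cons.1 hb with rfl | h2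
    · rcases h.1 with h3 | h3
      · exact Or.inl ⟨Nat.le_of_ble_eq_true h3.1, Nat.le_of_ble_eq_true h3.2⟩
      · exact Or.inr (Nat.le_of_ble_eq_true h3)
    · exact ih h.2 h2

theorem log_max_sub {ρ t t' m : ℝ} (hm : 0 < m) (h1 : m ≤ max ρ t) (h2 : m ≤ max ρ t') :
    |log (max ρ t) - log (max ρ t')| ≤ |t - t'| / m := by
  have key : ∀ t t' : ℝ, m ≤ max ρ t → m ≤ max ρ t' →
      log (max ρ t) - log (max ρ t') ≤ |t - t'| / m := by
    intro t t' h1 h2
    have p1 : 0 < max ρ t := hm.trans_le h1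
    have p2 : 0 < max ρ t' := hm.trans_le h2
    rw [← Real.log_div p1.ne' p2.ne']
    refine (Real.log_le_sub_one_of_pos (div_pos p1 p2)).trans ?_
    have e : max ρ t / max ρ t' - 1 = (max ρ t - max ρ t') / max ρ t' := by
      field_simp
    rw [e]
    have h3 : max ρ t - max ρ t' ≤ |t - t'| := by
      have := abs_max_sub_max_le_abs t t' ρ
      rw [max_comm t ρ, max_comm t' ρ] at this
      exact (le_abs_self _).trans this
    calc (max ρ t - max ρ t') / max ρ t' ≤ |t - t'| / max ρ t' :=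
          div_le_div_of_nonneg_right h3 p2.le
      _ ≤ |t - t'| / m := div_le_div_of_nonneg_left (abs_nonneg _) hm h2
  rw [abs_le]
  constructor
  · have := key t' t h2 h1
    rw [abs_sub_comm] at this
    linarith
  · exact key t t' h1 h2

theorem dist_pt (S : Sc) (hN : 0 < S.N) (x y x' y' : Nat) :
    ‖S.pt x y - S.pt x' y'‖ = √(d2 x y x' y') / S.N := by
  have hN' : (0 : ℝ) < S.N := by exact_mod_cast hN
  rw [← Real.sqrt_sq (norm_nonneg (S.pt x y - S.pt x' y')), sq_norm_pt,
    Real.sqrt_div (Nat.cast_nonneg _), Real.sqrt_sq hN'.le]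

theorem log_disc (S : Sc) (hN : 0 < S.N) {x y R K : Nat} (hRK : R < K) {b : CA} (hb : 0 < b.r)
    (h : (R ≤ b.r ∧ d2 x y b.x b.y ≤ (b.r - R) * (b.r - R)) ∨ K * K ≤ d2 x y b.x b.y)
    {z : ℂ} (hz : ‖z - S.pt x y‖ ≤ (R : ℝ) / S.N) :
    |log (max (b.ρ S) ‖z - b.c S‖) - log (max (b.ρ S) ‖S.pt x y - b.c S‖)| ≤
      (R : ℝ) / ((K : ℝ) - R) := by
  have hN' : (0 : ℝ) < S.N := by exact_mod_cast hN
  have hKR : (0 : ℝ) < (K : ℝ) - R := by
    have : (R : ℝ) < K := by exact_mod_cast hRK
    linarith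
  have hR0 : (0 : ℝ) ≤ R := Nat.cast_nonneg _
  have htri : |‖z - b.c S‖ - ‖S.pt x y - b.c S‖| ≤ (R : ℝ) / S.N := by
    have := abs_norm_sub_norm_le (z - b.c S) (S.pt x y - b.c S)
    rw [sub_sub_sub_cancel_right] at this
    exact this.trans hz
  rcases h with ⟨h1, h2⟩ | h2
  · have h1' : (R : ℝ) ≤ b.r := by exact_mod_cast h1
    have h3 : ‖S.pt x y - b.c S‖ ≤ ((b.r : ℝ) - R) / S.N := by
      rw [CA.c, dist_pt S hN]
      refine div_le_div_of_nonneg_right ?_ hN'.le
      rw [Real.sqrt_le_left (by linarith)]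
      have : (d2 x y b.x b.y : ℝ) ≤ (((b.r - R) * (b.r - R) : ℕ) : ℝ) := by exact_mod_cast h2
      rw [Nat.cast_mul, Nat.cast_sub h1] at this
      nlinarith
    have h4 : ‖z - b.c S‖ ≤ b.ρ S := by
      have := (abs_le.1 htri).2
      have e : b.ρ S = ((b.r : ℝ) - R) / S.N + (R : ℝ) / S.N := by rw [CA.ρ]; ring
      rw [e]; linarith
    have h5 : ‖S.pt x y - b.c S‖ ≤ b.ρ S := by
      refine h3.trans ?_
      rw [CA.ρ]
      refine div_le_div_of_nonneg_right ?_ hN'.le
      linarith
    rw [max_eq_left h4, max_eq_left h5, sub_self, abs_zero]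
    positivity
  · have h3 : (K : ℝ) / S.N ≤ ‖S.pt x y - b.c S‖ := by
      rw [CA.c, dist_pt S hN]
      refine div_le_div_of_nonneg_right ?_ hN'.le
      refine Real.le_sqrt_of_sq_le ?_
      have : ((K * K : ℕ) : ℝ) ≤ d2 x y b.x b.y := by exact_mod_cast h2
      push_cast at this
      nlinarith
    have hm : 0 < ((K : ℝ) - R) / S.N := div_pos hKR hN'
    have h4 : ((K : ℝ) - R) / S.N ≤ ‖z - b.c S‖ := by
      have := (abs_le.1 htri).1
      have e : ((K : ℝ) - R) / S.N = (K : ℝ) / S.N - (R : ℝ) / S.N := by ring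
      rw [e]; linarith
    have h5 : ((K : ℝ) - R) / S.N ≤ ‖S.pt x y - b.c S‖ := by
      refine le_trans ?_ h3
      refine div_le_div_of_nonneg_right ?_ hN'.le
      linarith
    refine (log_max_sub hm (h4.trans (le_max_right _ _)) (h5.trans (le_max_right _ _))).trans ?_
    rw [div_le_div_iff₀ hm hKR]
    have h6 := mul_le_mul_of_nonneg_right htri hKR.le
    calc |‖z - b.c S‖ - ‖S.pt x y - b.c S‖| * ((K : ℝ) - R) ≤ (R : ℝ) / S.N * ((K : ℝ) - R) := h6
      _ = (R : ℝ) * (((K : ℝ) - R) / S.N) := by ring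

theorem sum_absq (l : List CA) : (l.map fun b => |b.q|).sum ≤ (sumqp l : ℝ) + sumqn l := by
  induction l with
  | nil => simp [sumqp, sumqn]
  | cons a l ih =>
    rw [List.map_cons, List.sum_cons, sumqp, sumqn]
    have : |a.q| ≤ (a.qp : ℝ) + a.qn := by
      rw [CA.q, abs_le]
      have h1 : (0 : ℝ) ≤ a.qp := Nat.cast_nonneg _
      have h2 : (0 : ℝ) ≤ a.qn := Nat.cast_nonneg _
      constructor <;> linarith
    push_cast
    linarith

/-- the potential on a disc round a grid point -/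
theorem U_disc (S : Sc) (l : List CA) (h : okD S l = true) {x y R K : Nat}
    (hR : okR x y R K l = true) (hRK : R < K) {z : ℂ} (hz : ‖z - S.pt x y‖ ≤ (R : ℝ) / S.N) :
    |(toSC S l h).U z - (toSC S l h).U (S.pt x y)| ≤
      ((sumqp l : ℝ) + sumqn l) / S.L * (R / ((K : ℝ) - R)) := by
  have hL : (0 : ℝ) < S.L := by exact_mod_cast okD_L h
  have hKR : (0 : ℝ) < (K : ℝ) - R := by
    have : (R : ℝ) < K := by exact_mod_cast hRK
    linarith
  rw [SCirc.U, SCirc.U, ← Finset.sum_sub_distrib]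
  have e1 : ∀ k : Fin l.length, |(toSC S l h).w k * log (max ((toSC S l h).ρ k) ‖z - (toSC S l h).c k‖) -
      (toSC S l h).w k * log (max ((toSC S l h).ρ k) ‖S.pt x y - (toSC S l h).c k‖)| ≤
      |(l.get k).q| * ((S.L : ℝ)⁻¹ * (R / ((K : ℝ) - R))) := by
    intro k
    rw [← mul_sub, abs_mul]
    have h1 := log_disc S (okD_N h) hRK (okD_r h (List.get_mem l k)) (okR_mem hR (List.get_mem l k)) hz
    have h2 : |(toSC S l h).w k| = |(l.get k).q| * (S.L : ℝ)⁻¹ := by
      change |(l.get k).q / S.L| = _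
      rw [abs_div, abs_of_pos hL, div_eq_mul_inv]
    rw [h2, mul_assoc]
    refine mul_le_mul_of_nonneg_left ?_ (abs_nonneg _)
    exact mul_le_mul_of_nonneg_left h1 (by positivity)
  refine (Finset.abs_sum_le_sum_abs _ _).trans ((Finset.sum_le_sum fun k _ => e1 k).trans ?_)
  rw [← Finset.sum_mul, sum_fin l (fun b => |b.q|)]
  have h3 := sum_absq l
  have h4 : (0 : ℝ) ≤ (S.L : ℝ)⁻¹ * (R / ((K : ℝ) - R)) := by positivity
  calc (l.map fun b => |b.q|).sum * ((S.L : ℝ)⁻¹ * (R / ((K : ℝ) - R)))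
      ≤ ((sumqp l : ℝ) + sumqn l) * ((S.L : ℝ)⁻¹ * (R / ((K : ℝ) - R))) :=
        mul_le_mul_of_nonneg_right h3 h4
    _ = _ := by rw [div_eq_mul_inv]; ring

end Vale.Agent.P030.H476
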