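import Vale.Agent.P030.H476.ValE

/-!
# Energies of mixed tables, real side
-/

namespace Vale.Agent.P030.H476.VE

open Real Vale.Agent.P030.H3 Vale.Agent.P030.H208
open scoped ComplexConjugate

/-! ### real side -/

noncomputable def EA.z (S : SE) (a : EA) : ℂ := ⟨((a.x : ℝ) - S.X) / S.N, (a.y : ℝ) / S.N⟩

noncomputable def EA.ρ (S : SE) (a : EA) : ℝ := (a.r : ℝ) / S.N

/-- the point or its mirror image -/
noncomputable def EA.zs (S : SE) (a : EA) (s : Bool) : ℂ := cond s (conj (a.z S)) (a.z S)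

open Classical in
/-- the atoms of an entry -/
noncomputable def EA.at (S : SE) (a : EA) (s : Bool) : H208.Atom :=
  if a.kd = 0 then
    (if h : (a.z S).im ≠ 0 then cau (a.z S) h else circ 0 1 one_pos)
  else
    (if h : 0 < a.ρ S then circ (a.zs S s) (a.ρ S) h else circ 0 1 one_pos)

/-- multiplicity -/
noncomputable def EA.mu (a : EA) (s : Bool) : ℝ := cond s (if a.kd = 1 then 1 else 0) 1

noncomputable def EA.mt (a : EA) : ℝ := if a.kd = 1 then 2 else 1

noncomputable def J0 (S : SE) (a b : EA) : ℝ :=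
  ∑ s, ∑ t, a.mu s * b.mu t * (a.at S s).cr (b.at S t)

/-- normalised mutual energy -/
noncomputable def J (S : SE) (a b : EA) : ℝ := 2 * J0 S a b + 2 * (a.mt * b.mt) * log S.N

theorem K_iff (a : EA) : a.K = true ↔ a.kd = 0 := by
  constructor
  · intro h; exact Nat.eq_of_beq_eq_true h
  · intro h; rw [EA.K, h]; rfl

theorem C_iff (a : EA) : a.C = true ↔ a.kd = 1 := by
  constructor
  · intro h; exact Nat.eq_of_beq_eq_true h
  · intro h; rw [EA.C, h]; rfl

theorem C_false {a : EA} (h : a.kd ≠ 1) : a.C = false := by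
  rw [Bool.eq_false_iff]; intro h'; exact h ((C_iff a).1 h')

theorem K_false {a : EA} (h : a.kd ≠ 0) : a.K = false := by
  rw [Bool.eq_false_iff]; intro h'; exact h ((K_iff a).1 h')

/-- the three kinds -/
theorem ok_cases {a : EA} (h : a.ok = true) :
    (a.kd = 0 ∧ 0 < a.y) ∨ (a.kd = 1 ∧ 0 < a.r ∧ a.r ≤ a.y) ∨
      (a.kd ≠ 0 ∧ a.kd ≠ 1 ∧ 0 < a.r ∧ a.y = 0) := by
  unfold EA.ok at h
  by_cases h0 : a.kd = 0
  · rw [(K_iff a).2 h0, cond_true] at h
    exact Or.inl ⟨h0, Nat.le_of_ble_eq_true h⟩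
  · rw [K_false h0, cond_false, Bool.and_eq_true] at h
    have h1 := Nat.le_of_ble_eq_true h.1
    by_cases h2 : a.kd = 1
    · rw [(C_iff a).2 h2, cond_true] at h
      exact Or.inr (Or.inl ⟨h2, h1, Nat.le_of_ble_eq_true h.2⟩)
    · rw [C_false h2, cond_false] at h
      exact Or.inr (Or.inr ⟨h0, h2, h1, Nat.eq_of_beq_eq_true h.2⟩)

variable {S : SE}

theorem fd_cast (a b : EA) :
    (fd a b : ℝ) = ((a.x : ℝ) - b.x) ^ 2 + ((a.y : ℝ) - b.y) ^ 2 := by
  have e : fd a b = sq2 a.x b.x + sq2 a.y b.y := rfl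
  rw [e, Nat.cast_add, sq2_cast, sq2_cast]

theorem fc_cast (a b : EA) :
    (fc a b : ℝ) = ((a.x : ℝ) - b.x) ^ 2 + ((a.y : ℝ) + b.y) ^ 2 := by
  have e : fc a b = sq2 a.x b.x + (a.y + b.y) * (a.y + b.y) := rfl
  rw [e, Nat.cast_add, sq2_cast]
  push_cast
  ring

theorem norm_zz (hN : 0 < S.N) (a b : EA) : ‖a.z S - b.z S‖ = √(fd a b) / S.N := by
  have hN' : (0 : ℝ) < S.N := by exact_mod_cast hN
  rw [← Real.sqrt_sq (norm_nonneg (a.z S - b.z S))]
  have : ‖a.z S - b.z S‖ ^ 2 = (fd a b : ℝ) / (S.N : ℝ) ^ 2 := by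
    rw [Complex.sq_norm, Complex.normSq_apply, fd_cast]
    simp only [EA.z, Complex.sub_re, Complex.sub_im]
    field_simp
    ring
  rw [this, Real.sqrt_div (Nat.cast_nonneg _), Real.sqrt_sq hN'.le]

theorem norm_zc (hN : 0 < S.N) (a b : EA) : ‖a.z S - conj (b.z S)‖ = √(fc a b) / S.N := by
  have hN' : (0 : ℝ) < S.N := by exact_mod_cast hN
  rw [← Real.sqrt_sq (norm_nonneg (a.z S - conj (b.z S)))]
  have : ‖a.z S - conj (b.z S)‖ ^ 2 = (fc a b : ℝ) / (S.N : ℝ) ^ 2 := by
    rw [Complex.sq_norm, Complex.normSq_apply, fc_cast]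
    simp only [EA.z, Complex.sub_re, Complex.sub_im, Complex.conj_re, Complex.conj_im]
    field_simp
    ring
  rw [this, Real.sqrt_div (Nat.cast_nonneg _), Real.sqrt_sq hN'.le]

theorem norm_cz (a b : EA) : ‖conj (a.z S) - b.z S‖ = ‖a.z S - conj (b.z S)‖ := by
  have : conj (a.z S) - b.z S = conj (a.z S - conj (b.z S)) := by
    rw [map_sub, Complex.conj_conj]
  rw [this, Complex.norm_conj]

theorem norm_cc (a b : EA) : ‖conj (a.z S) - conj (b.z S)‖ = ‖a.z S - b.z S‖ := by
  rw [← map_sub, Complex.norm_conj]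

/-- logarithm of a normalised square root -/
theorem log_sqrt_div {M : ℝ} (hM : 0 < M) {N : ℝ} (hN : 0 < N) :
    2 * log (√M / N) + 2 * log N = log M := by
  rw [Real.log_div (Real.sqrt_pos.2 hM).ne' hN.ne', Real.log_sqrt hM.le]
  ring

theorem fd_le_fc (a b : EA) : fd a b ≤ fc a b := by
  have h : (fd a b : ℝ) ≤ fc a b := by
    rw [fd_cast, fc_cast]
    nlinarith [mul_nonneg (Nat.cast_nonneg (α := ℝ) a.y) (Nat.cast_nonneg (α := ℝ) b.y)]
  exact_mod_cast h

theorem fc_pos {a b : EA} (h : 0 < a.y ∨ 0 < b.y) : 0 < fc a b := by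
  have e : fc a b = sq2 a.x b.x + (a.y + b.y) * (a.y + b.y) := rfl
  rw [e]
  have : 0 < a.y + b.y := by omega
  positivity

theorem fc_comm (a b : EA) : fc a b = fc b a := by
  have h : (fc a b : ℝ) = fc b a := by rw [fc_cast, fc_cast]; ring
  exact_mod_cast h

theorem fd_comm (a b : EA) : fd a b = fd b a := by
  have h : (fd a b : ℝ) = fd b a := by rw [fd_cast, fd_cast]; ring
  exact_mod_cast h

theorem at_K (hN : 0 < S.N) {a : EA} (h : a.kd = 0) (hy : 0 < a.y) :
    ∃ hp : (a.z S).im ≠ 0, 0 < (a.z S).im ∧ ∀ s, a.at S s = cau (a.z S) hp := by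
  have hN' : (0 : ℝ) < S.N := by exact_mod_cast hN
  have hy' : (0 : ℝ) < a.y := by exact_mod_cast hy
  have hp : 0 < (a.z S).im := div_pos hy' hN'
  refine ⟨hp.ne', hp, fun s => ?_⟩
  rw [EA.at, if_pos h, dif_pos hp.ne']

theorem at_C (hN : 0 < S.N) {a : EA} (h : a.kd ≠ 0) (hr : 0 < a.r) :
    ∃ hρ : 0 < a.ρ S, ∀ s, a.at S s = circ (a.zs S s) (a.ρ S) hρ := by
  have hN' : (0 : ℝ) < S.N := by exact_mod_cast hN
  have hr' : (0 : ℝ) < a.r := by exact_mod_cast hr
  have hρ : 0 < a.ρ S := div_pos hr' hN'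
  refine ⟨hρ, fun s => ?_⟩
  rw [EA.at, if_neg h, dif_pos hρ]

/-- `2 cr + 2 log N` between the logarithms of two naturals -/
def Bd (S : SE) (A B : H208.Atom) (m n : ℕ) : Prop :=
  log m ≤ 2 * A.cr B + 2 * log S.N ∧ 2 * A.cr B + 2 * log S.N ≤ log n

theorem Bd.comm {A B : H208.Atom} {m n : ℕ} (h : Bd S A B m n) : Bd S B A m n := by
  rw [Bd, H208.Atom.cr_comm]; exact h

/-- Cauchy - Cauchy -/
theorem bd_KK (hN : 0 < S.N) {a b : EA} (ha : a.kd = 0) (hay : 0 < a.y) (hb : b.kd = 0)
    (hby : 0 < b.y) (s t : Bool) : Bd S (a.at S s) (b.at S t) (fc a b) (fc a b) := by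
  have hN' : (0 : ℝ) < S.N := by exact_mod_cast hN
  obtain ⟨h1, h1', e1⟩ := at_K hN ha hay
  obtain ⟨h2, h2', e2⟩ := at_K hN hb hby
  have h3 : (0 : ℝ) < fc b a := by exact_mod_cast fc_pos (Or.inl hby)
  have key : 2 * (a.at S s).cr (b.at S t) + 2 * log S.N = log (fc a b) := by
    rw [e1, e2, cau_cr_cau_same h1 h2 (mul_pos h2' h1').le, norm_zc hN, fc_comm a b]
    exact log_sqrt_div h3 hN'
  exact ⟨key.ge, key.le⟩

/-- Cauchy - circle, general -/
theorem far_eq (hN : 0 < S.N) (a b : EA) (t : Bool) :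
    max ‖b.zs S t - a.z S‖ ‖b.zs S t - conj (a.z S)‖ = √(fc a b) / S.N := by
  have hN' : (0 : ℝ) < S.N := by exact_mod_cast hN
  have h : √(fd b a : ℝ) / S.N ≤ √(fc b a) / S.N := by
    have : (fd b a : ℝ) ≤ fc b a := by exact_mod_cast fd_le_fc b a
    gcongr
  cases t
  · change max ‖b.z S - a.z S‖ ‖b.z S - conj (a.z S)‖ = _
    rw [norm_zz hN, norm_zc hN, max_eq_right h, fc_comm]
  · change max ‖conj (b.z S) - a.z S‖ ‖conj (b.z S) - conj (a.z S)‖ = _
    rw [norm_cz, norm_cc, norm_zz hN, norm_zc hN, max_eq_left h, fc_comm]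

theorem bd_KC_lo (hN : 0 < S.N) {a b : EA} (ha : a.kd = 0) (hay : 0 < a.y) (hb : b.kd ≠ 0)
    (hbr : 0 < b.r) (s t : Bool) :
    log (fc a b) ≤ 2 * (a.at S s).cr (b.at S t) + 2 * log S.N := by
  have hN' : (0 : ℝ) < S.N := by exact_mod_cast hN
  obtain ⟨h1, h1', e1⟩ := at_K hN ha hay
  obtain ⟨h2, e2⟩ := at_C hN hb hbr
  have h3 : (0 : ℝ) < fc a b := by exact_mod_cast fc_pos (Or.inl hay)
  have h4 := le_cau_cr_circ h1 h2 (c := b.zs S t)
  rw [far_eq hN] at h4
  rw [e1, e2, ← log_sqrt_div h3 hN']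
  linarith

theorem bd_KC_lo' (hN : 0 < S.N) {a b : EA} (ha : a.kd = 0) (hay : 0 < a.y) (hb : b.kd ≠ 0)
    (hbr : 0 < b.r) (s t : Bool) :
    log ((mx (fc a b) (Nat.mul b.r b.r) : ℕ) : ℝ) ≤
      2 * (a.at S s).cr (b.at S t) + 2 * log S.N := by
  have hN' : (0 : ℝ) < S.N := by exact_mod_cast hN
  rw [mx_eq]
  rcases max_cases (fc a b) (Nat.mul b.r b.r) with h | h
  · rw [h.1]; exact bd_KC_lo hN ha hay hb hbr s t
  · rw [h.1]
    obtain ⟨h1, h1', e1⟩ := at_K hN ha hay
    obtain ⟨h2, e2⟩ := at_C hN hb hbr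
    have h4 := log_le_cau_cr_circ h1 h2 (c := b.zs S t)
    have h5 : (0 : ℝ) < b.r := by exact_mod_cast hbr
    rw [e1, e2]
    have h6 : log ((Nat.mul b.r b.r : ℕ) : ℝ) = 2 * log (b.ρ S) + 2 * log S.N := by
      have : ((Nat.mul b.r b.r : ℕ) : ℝ) = (b.r : ℝ) * b.r := by
        change ((b.r * b.r : ℕ) : ℝ) = _
        push_cast; ring
      rw [this, Real.log_mul h5.ne' h5.ne', EA.ρ, Real.log_div h5.ne' hN'.ne']
      ring
    linarith

theorem im_zs (hN : 0 < S.N) (b : EA) (t : Bool) : |(b.zs S t).im| = (b.y : ℝ) / S.N := by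
  have hN' : (0 : ℝ) < S.N := by exact_mod_cast hN
  have h : (0 : ℝ) ≤ (b.y : ℝ) / S.N := by positivity
  cases t
  · exact abs_of_nonneg h
  · change |(conj (b.z S)).im| = _
    rw [Complex.conj_im, abs_neg]
    exact abs_of_nonneg h

/-- Cauchy - circle which does not cross the real line -/
theorem bd_KC (hN : 0 < S.N) {a b : EA} (ha : a.kd = 0) (hay : 0 < a.y) (hb : b.kd ≠ 0)
    (hbr : 0 < b.r) (hry : b.r ≤ b.y) (s t : Bool) :
    Bd S (a.at S s) (b.at S t) (mx (fc a b) (Nat.mul b.r b.r)) (fc a b) := by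
  have hN' : (0 : ℝ) < S.N := by exact_mod_cast hN
  refine ⟨bd_KC_lo' hN ha hay hb hbr s t, ?_⟩
  obtain ⟨h1, h1', e1⟩ := at_K hN ha hay
  obtain ⟨h2, e2⟩ := at_C hN hb hbr
  have h3 : (0 : ℝ) < fc a b := by exact_mod_cast fc_pos (Or.inl hay)
  have h4 : b.ρ S ≤ |(b.zs S t).im| := by
    rw [im_zs hN]
    have : (b.r : ℝ) ≤ b.y := by exact_mod_cast hry
    unfold EA.ρ
    gcongr
  rw [e1, e2, cau_cr_circ h1 h2 h4, far_eq hN]
  exact (log_sqrt_div h3 hN').le

/-- Cauchy - circle which crosses the real line -/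
theorem bd_KZ (hN : 0 < S.N) {a b : EA} (ha : a.kd = 0) (hay : 0 < a.y) (hb : b.kd ≠ 0)
    (hbr : 0 < b.r) (s t : Bool) :
    Bd S (a.at S s) (b.at S t) (mx (fc a b) (Nat.mul b.r b.r)) (usr (fc a b) b.r) := by
  have hN' : (0 : ℝ) < S.N := by exact_mod_cast hN
  refine ⟨bd_KC_lo' hN ha hay hb hbr s t, ?_⟩
  obtain ⟨h1, h1', e1⟩ := at_K hN ha hay
  obtain ⟨h2, e2⟩ := at_C hN hb hbr
  have h4 := cau_cr_circ_le h1 h2 (c := b.zs S t)
  rw [far_eq hN] at h4
  have h5 := sqrt_le_cusq (fc a b)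
  have h6 : (0 : ℝ) < b.r := by exact_mod_cast hbr
  have h7 : (0 : ℝ) ≤ √(fc a b : ℝ) := Real.sqrt_nonneg _
  have h8 : log (√(fc a b : ℝ) / S.N + b.ρ S) + log S.N ≤ log (cusq (fc a b) + b.r) := by
    have e : √(fc a b : ℝ) / S.N + b.ρ S = (√(fc a b : ℝ) + b.r) / S.N := by
      rw [EA.ρ]; ring
    rw [e, Real.log_div (by positivity) hN'.ne', sub_add_cancel]
    exact Real.log_le_log (by positivity) (by linarith)
  rw [e1, e2, usr_eq]
  push_cast
  rw [Real.log_mul (by positivity) (by positivity)]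
  linarith

theorem log_mul_self' {t N : ℝ} (ht : 0 < t) (hN : 0 < N) :
    2 * log (t / N) + 2 * log N = log (t * t) := by
  rw [Real.log_div ht.ne' hN.ne', Real.log_mul ht.ne' ht.ne']
  ring

/-- the distance of the centres when there is no genuine mirror pair -/
theorem norm_same (hN : 0 < S.N) {a b : EA} {s t : Bool} (h : s = t ∨ a.y = 0 ∨ b.y = 0) :
    ‖a.zs S s - b.zs S t‖ = √(fd a b) / S.N := by
  have conj_z : ∀ c : EA, c.y = 0 → conj (c.z S) = c.z S := by
    intro c hc
    rw [Complex.conj_eq_iff_im]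
    simp [EA.z, hc]
  have key : ∀ c : EA, ∀ s, c.y = 0 → c.zs S s = c.z S := by
    intro c s hc
    cases s
    · rfl
    · exact conj_z c hc
  have key' : ∀ c : EA, ∀ s, c.y = 0 → c.zs S s = conj (c.z S) := by
    intro c s hc
    rw [key c s hc, conj_z c hc]
  rcases h with h | h | h
  · subst h
    cases s
    · exact norm_zz hN a b
    · change ‖conj (a.z S) - conj (b.z S)‖ = _
      rw [norm_cc, norm_zz hN]
  · cases t
    · rw [key a s h]; exact norm_zz hN a b
    · rw [key' a s h]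
      change ‖conj (a.z S) - conj (b.z S)‖ = _
      rw [norm_cc, norm_zz hN]
  · cases s
    · rw [key b t h]; exact norm_zz hN a b
    · rw [key' b t h]
      change ‖conj (a.z S) - conj (b.z S)‖ = _
      rw [norm_cc, norm_zz hN]

theorem cc_eq (a b : EA) : cc a b = max (max (a.r * a.r) (b.r * b.r)) (fd a b) := by
  rw [cc, mx_eq, mx_eq]; rfl

theorem cc_cast (hN : 0 < S.N) (a b : EA) :
    (cc a b : ℝ) = (max (max (a.ρ S) (b.ρ S)) (√(fd a b) / S.N) * S.N) ^ 2 := by
  have hN' : (0 : ℝ) < S.N := by exact_mod_cast hN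
  rw [cc_eq, Nat.cast_max, Nat.cast_max, max_mul_of_nonneg _ _ hN'.le,
    max_mul_of_nonneg _ _ hN'.le]
  have sqm : ∀ u v : ℝ, 0 ≤ u → 0 ≤ v → (max u v) ^ 2 = max (u ^ 2) (v ^ 2) := by
    intro u v hu hv
    rcases le_total u v with h | h
    · rw [max_eq_right h, max_eq_right (pow_le_pow_left₀ hu h 2)]
    · rw [max_eq_left h, max_eq_left (pow_le_pow_left₀ hv h 2)]
  have e1 : a.ρ S * S.N = a.r := by rw [EA.ρ]; field_simp
  have e2 : b.ρ S * S.N = b.r := by rw [EA.ρ]; field_simp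
  have e3 : √(fd a b : ℝ) / S.N * S.N = √(fd a b : ℝ) := by field_simp
  rw [e1, e2, e3, sqm _ _ (by positivity) (by positivity), sqm _ _ (by positivity) (by positivity),
    Real.sq_sqrt (Nat.cast_nonneg _)]
  push_cast
  ring_nf

/-- circle - circle, lower bound -/
theorem bd_cc_lo (hN : 0 < S.N) {a b : EA} (ha : a.kd ≠ 0) (har : 0 < a.r) (hb : b.kd ≠ 0)
    (hbr : 0 < b.r) {s t : Bool} (hst : s = t ∨ a.y = 0 ∨ b.y = 0) :
    log (cc a b) ≤ 2 * (a.at S s).cr (b.at S t) + 2 * log S.N := by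
  have hN' : (0 : ℝ) < S.N := by exact_mod_cast hN
  obtain ⟨h1, e1⟩ := at_C hN ha har
  obtain ⟨h2, e2⟩ := at_C hN hb hbr
  have h3 := le_mE (c := a.zs S s) (c' := b.zs S t) h1 h2
  rw [norm_same hN hst] at h3
  rw [e1, e2, circ_cr_circ h1 h2, cc_cast hN]
  have h4 : 0 < max (max (a.ρ S) (b.ρ S)) (√(fd a b) / S.N) :=
    lt_max_of_lt_left (lt_max_of_lt_left h1)
  rw [Real.log_pow, Real.log_mul h4.ne' hN'.ne']
  push_cast
  linarith

theorem apr_cases {a b : EA} (h : apr a b = true) :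
    (a.r + b.r) * (a.r + b.r) ≤ fd a b ∨ (a.r ≤ b.r ∧ fd a b ≤ sq2 b.r a.r) ∨
      (b.r ≤ a.r ∧ fd a b ≤ sq2 a.r b.r) := by
  simp only [apr, Bool.or_eq_true, Bool.and_eq_true] at h
  rcases h with h | h | h
  · exact Or.inl (Nat.le_of_ble_eq_true h)
  · exact Or.inr (Or.inl ⟨Nat.le_of_ble_eq_true h.1, Nat.le_of_ble_eq_true h.2⟩)
  · exact Or.inr (Or.inr ⟨Nat.le_of_ble_eq_true h.1, Nat.le_of_ble_eq_true h.2⟩)


theorem ov_eq (a b : EA) : ov a b = max (max (a.r * a.r) (b.r * b.r))
    ((cusq (fd a b) + min a.r b.r) * (cusq (fd a b) + min a.r b.r)) := by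
  rw [ov, mx_eq, mx_eq, usr_eq, mn_eq]; rfl

/-- two circles in general position, upper bound -/
theorem mE_up {c c' : ℂ} {ρ ρ' : ℝ} (hρ : 0 < ρ) (hρ' : 0 < ρ') (A B : H208.Atom)
    (hA : A = circ c ρ hρ) (hB : B = circ c' ρ' hρ') :
    A.cr B ≤ log (max (max ρ ρ') (‖c - c'‖ + min ρ ρ')) := by
  rcases le_total ρ ρ' with h | h
  · rw [hA, hB, circ_cr_circ hρ hρ', max_eq_right h, min_eq_left h]
    exact mE_le hρ hρ'
  · rw [hA, hB, H208.Atom.cr_comm, circ_cr_circ hρ' hρ, max_eq_left h, min_eq_right h,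
      norm_sub_rev c c']
    exact mE_le hρ' hρ

theorem bd_cc_up (hN : 0 < S.N) {a b : EA} (ha : a.kd ≠ 0) (har : 0 < a.r) (hb : b.kd ≠ 0)
    (hbr : 0 < b.r) {s t : Bool} (hst : s = t ∨ a.y = 0 ∨ b.y = 0) :
    2 * (a.at S s).cr (b.at S t) + 2 * log S.N ≤
      log ((cond (apr a b) (cc a b) (ov a b) : ℕ) : ℝ) := by
  have hN' : (0 : ℝ) < S.N := by exact_mod_cast hN
  obtain ⟨h1, e1⟩ := at_C hN ha har
  obtain ⟨h2, e2⟩ := at_C hN hb hbr
  have har' : (0 : ℝ) < a.r := by exact_mod_cast har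
  have hbr' : (0 : ℝ) < b.r := by exact_mod_cast hbr
  by_cases hap : apr a b = true
  · rw [hap, cond_true]
    have h3 : Apart (a.zs S s) (a.ρ S) (b.zs S t) (b.ρ S) := by
      unfold Apart
      rw [norm_same hN hst]
      simp only [EA.ρ]
      rcases apr_cases hap with h | h | h
      · left
        have h5 : ((a.r : ℝ) + b.r) * (a.r + b.r) ≤ fd a b := by exact_mod_cast h
        have h6 : (a.r : ℝ) + b.r ≤ √(fd a b : ℝ) := by
          apply Real.le_sqrt_of_sq_le; nlinarith
        rw [← add_div]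
        gcongr
      · right; left
        have h5 : (fd a b : ℝ) ≤ ((b.r : ℝ) - a.r) ^ 2 := by
          rw [← sq2_cast]; exact_mod_cast h.2
        have h4 : (a.r : ℝ) ≤ b.r := by exact_mod_cast h.1
        have h6 : √(fd a b : ℝ) ≤ (b.r : ℝ) - a.r := by
          rw [Real.sqrt_le_left (by linarith)]; exact h5
        rw [← add_div]
        gcongr
        linarith
      · right; right
        have h5 : (fd a b : ℝ) ≤ ((a.r : ℝ) - b.r) ^ 2 := by
          rw [← sq2_cast]; exact_mod_cast h.2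
        have h4 : (b.r : ℝ) ≤ a.r := by exact_mod_cast h.1
        have h6 : √(fd a b : ℝ) ≤ (a.r : ℝ) - b.r := by
          rw [Real.sqrt_le_left (by linarith)]; exact h5
        rw [← add_div]
        gcongr
        linarith
    rw [e1, e2, circ_cr_circ h1 h2, mE_eq_of_apart h1 h2 h3, norm_same hN hst, cc_cast hN]
    have h4 : 0 < max (max (a.ρ S) (b.ρ S)) (√(fd a b) / S.N) :=
      lt_max_of_lt_left (lt_max_of_lt_left h1)
    rw [Real.log_pow, Real.log_mul h4.ne' hN'.ne']
    push_cast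
    linarith
  · rw [Bool.not_eq_true] at hap
    rw [hap, cond_false, e1, e2]
    have h3 := mE_up h1 h2 _ _ rfl rfl (c := a.zs S s) (c' := b.zs S t)
    rw [norm_same hN hst] at h3
    set T := max (max (a.ρ S) (b.ρ S)) (√(fd a b) / S.N + min (a.ρ S) (b.ρ S)) with hT
    have hT0 : 0 < T := lt_max_of_lt_left (lt_max_of_lt_left h1)
    have h4 : (T * S.N) ^ 2 ≤ (ov a b : ℝ) := by
      rw [ov_eq]
      push_cast
      have e3 : T * S.N = max (max (a.r : ℝ) b.r) (√(fd a b : ℝ) + min (a.r : ℝ) b.r) := by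
        rw [hT, max_mul_of_nonneg _ _ hN'.le, max_mul_of_nonneg _ _ hN'.le, add_mul,
          min_mul_of_nonneg _ _ hN'.le]
        have e4 : a.ρ S * S.N = a.r := by rw [EA.ρ]; field_simp
        have e5 : b.ρ S * S.N = b.r := by rw [EA.ρ]; field_simp
        have e6 : √(fd a b : ℝ) / S.N * S.N = √(fd a b : ℝ) := by field_simp
        rw [e4, e5, e6]
      rw [e3]
      have h5 := sqrt_le_cusq (fd a b)
      have h6 := Real.sqrt_nonneg (fd a b : ℝ)
      have h7 : 0 < min (a.r : ℝ) b.r := lt_min har' hbr'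
      rcases max_cases (max (a.r : ℝ) b.r) (√(fd a b : ℝ) + min (a.r : ℝ) b.r) with h | h
      · rw [h.1]
        refine le_max_of_le_left ?_
        rcases max_cases (a.r : ℝ) b.r with h' | h'
        · rw [h'.1]; exact le_max_of_le_left (by nlinarith)
        · rw [h'.1]; exact le_max_of_le_right (by nlinarith)
      · rw [h.1]
        refine le_max_of_le_right ?_
        nlinarith
    have h5 : 2 * log T + 2 * log S.N = log ((T * S.N) ^ 2) := by
      rw [Real.log_pow, Real.log_mul hT0.ne' hN'.ne']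
      push_cast
      ring
    have h6 : log ((T * S.N) ^ 2) ≤ log (ov a b) := Real.log_le_log (by positivity) h4
    linarith

/-- mirrored circle against the mirror image of another one -/
theorem bd_opp (hN : 0 < S.N) {a b : EA} (ha : a.kd ≠ 0) (har : 0 < a.r) (hay : a.r ≤ a.y)
    (hb : b.kd ≠ 0) (hbr : 0 < b.r) (hby : b.r ≤ b.y) {s t : Bool} (hst : s ≠ t) :
    Bd S (a.at S s) (b.at S t) (fc a b) (fc a b) := by
  have hN' : (0 : ℝ) < S.N := by exact_mod_cast hN
  obtain ⟨h1, e1⟩ := at_C hN ha har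
  obtain ⟨h2, e2⟩ := at_C hN hb hbr
  have hn : ‖a.zs S s - b.zs S t‖ = √(fc a b) / S.N := by
    cases s <;> cases t
    · exact absurd rfl hst
    · exact norm_zc hN a b
    · change ‖conj (a.z S) - b.z S‖ = _
      rw [norm_cz, norm_zc hN]
    · exact absurd rfl hst
  have h3 : a.ρ S + b.ρ S ≤ ‖a.zs S s - b.zs S t‖ := by
    rw [hn, EA.ρ, EA.ρ, ← add_div]
    have h5 : ((a.r : ℝ) + b.r) ^ 2 ≤ fc a b := by
      rw [fc_cast]
      have h6 : (a.r : ℝ) ≤ a.y := by exact_mod_cast hay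
      have h7 : (b.r : ℝ) ≤ b.y := by exact_mod_cast hby
      have h8 : (0 : ℝ) ≤ (a.r : ℝ) + b.r := by positivity
      nlinarith [sq_nonneg ((a.x : ℝ) - b.x)]
    have h6 : (a.r : ℝ) + b.r ≤ √(fc a b : ℝ) := Real.le_sqrt_of_sq_le h5
    gcongr
  have h4 : (0 : ℝ) < fc a b := by
    exact_mod_cast fc_pos (Or.inl (lt_of_lt_of_le har hay))
  have key : 2 * (a.at S s).cr (b.at S t) + 2 * log S.N = log (fc a b) := by
    rw [e1, e2, circ_cr_circ h1 h2, mE_disjoint h1 h2 h3, hn]
    exact log_sqrt_div h4 hN'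
  exact ⟨key.ge, key.le⟩

theorem cc_comm (a b : EA) : cc a b = cc b a := by
  rw [cc_eq, cc_eq, fd_comm, max_comm (a.r * a.r)]

/-- bound of one mutual energy by `lo1`, `up1` -/
theorem bd_same (hN : 0 < S.N) {a b : EA} (ha : a.ok = true) (hb : b.ok = true) {s t : Bool}
    (hst : s = t ∨ a.kd ≠ 1 ∨ b.kd ≠ 1) :
    Bd S (a.at S s) (b.at S t) (lo1 a b) (up1 a b) := by
  by_cases hka : a.kd = 0
  · have hay : 0 < a.y := by
      rcases ok_cases ha with h | h | h
      · exact h.2
      · exact absurd (hka ▸ h.1) (by norm_num)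
      · exact absurd hka h.1
    have e0 : a.K = true := (K_iff a).2 hka
    by_cases hkb : b.kd = 0
    · have hby : 0 < b.y := by
        rcases ok_cases hb with h | h | h
        · exact h.2
        · exact absurd (hkb ▸ h.1) (by norm_num)
        · exact absurd hkb h.1
      have e1 : b.K = true := (K_iff b).2 hkb
      have l : lo1 a b = fc a b := by rw [lo1, e0, e1]; rfl
      have u : up1 a b = fc a b := by rw [up1, e0, e1]; rfl
      rw [l, u]
      exact bd_KK hN hka hay hkb hby s t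
    · have hbr : 0 < b.r := by
        rcases ok_cases hb with h | h | h
        · exact absurd h.1 hkb
        · exact h.2.1
        · exact h.2.2.1
      have l : lo1 a b = mx (fc a b) (Nat.mul b.r b.r) := by
        rw [lo1, e0, K_false hkb, cond_true, cond_false]
      rw [l]
      by_cases hry : b.r ≤ b.y
      · have u : up1 a b = fc a b := by
          rw [up1, e0, Nat.ble_eq_true_of_le hry, Bool.or_true]; rfl
        rw [u]
        exact bd_KC hN hka hay hkb hbr hry s t
      · have h0 : Nat.ble b.r b.y = false := by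
          rw [Bool.eq_false_iff]; intro hh; exact hry (Nat.le_of_ble_eq_true hh)
        have u : up1 a b = usr (fc a b) b.r := by
          rw [up1, e0, h0, K_false hkb]; rfl
        rw [u]
        exact bd_KZ hN hka hay hkb hbr s t
  · have har : 0 < a.r := by
      rcases ok_cases ha with h | h | h
      · exact absurd h.1 hka
      · exact h.2.1
      · exact h.2.2.1
    have e0 : a.K = false := K_false hka
    by_cases hkb : b.kd = 0
    · have hby : 0 < b.y := by
        rcases ok_cases hb with h | h | h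
        · exact h.2
        · exact absurd (hkb ▸ h.1) (by norm_num)
        · exact absurd hkb h.1
      have e1 : b.K = true := (K_iff b).2 hkb
      have l : lo1 a b = mx (fc b a) (Nat.mul a.r a.r) := by
        rw [lo1, e0, e1, fc_comm, cond_false, cond_true]
      rw [l]
      by_cases hry : a.r ≤ a.y
      · have u : up1 a b = fc b a := by
          rw [up1, e0, e1, Nat.ble_eq_true_of_le hry, fc_comm]; rfl
        rw [u]
        exact (bd_KC hN hkb hby hka har hry t s).comm
      · have h0 : Nat.ble a.r a.y = false := by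
          rw [Bool.eq_false_iff]; intro hh; exact hry (Nat.le_of_ble_eq_true hh)
        have u : up1 a b = usr (fc b a) a.r := by
          rw [up1, e0, e1, h0, fc_comm]; rfl
        rw [u]
        exact (bd_KZ hN hkb hby hka har t s).comm
    · have hbr : 0 < b.r := by
        rcases ok_cases hb with h | h | h
        · exact absurd h.1 hkb
        · exact h.2.1
        · exact h.2.2.1
      have e1 : b.K = false := K_false hkb
      have l : lo1 a b = cc a b := by rw [lo1, e0, e1]; rfl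
      have u : up1 a b = cond (apr a b) (cc a b) (ov a b) := by rw [up1, e0, e1]; rfl
      have hst' : s = t ∨ a.y = 0 ∨ b.y = 0 := by
        rcases hst with h | h | h
        · exact Or.inl h
        · rcases ok_cases ha with h' | h' | h'
          · exact absurd h'.1 hka
          · exact absurd h'.1 h
          · exact Or.inr (Or.inl h'.2.2.2)
        · rcases ok_cases hb with h' | h' | h'
          · exact absurd h'.1 hkb
          · exact absurd h'.1 h
          · exact Or.inr (Or.inr h'.2.2.2)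
      rw [l, u]
      exact ⟨bd_cc_lo hN hka har hkb hbr hst', bd_cc_up hN hka har hkb hbr hst'⟩

theorem mu_false (a : EA) : a.mu false = 1 := rfl

theorem J0_eq (a b : EA) : J0 S a b =
    a.mu true * b.mu true * (a.at S true).cr (b.at S true) +
    a.mu true * (a.at S true).cr (b.at S false) +
    b.mu true * (a.at S false).cr (b.at S true) + (a.at S false).cr (b.at S false) := by
  simp only [J0, Fintype.sum_bool, mu_false, mul_one, one_mul]
  ring

theorem qlo_log (n : ℕ) : (qlo n : ℝ) ≤ 2 ^ 40 * log n := qlo_le n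

/-- **bounds of the normalised mutual energy** -/
theorem J_bounds (hN : 0 < S.N) {a b : EA} (ha : a.ok = true) (hb : b.ok = true) :
    (jlo a b : ℝ) ≤ 2 ^ 40 * J S a b ∧ 2 ^ 40 * J S a b ≤ (jup a b : ℝ) := by
  have l1 := qlo_le (lo1 a b)
  have u1 := le_qup (up1 a b)
  have l2 := qlo_le (fc a b)
  have u2 := le_qup (fc a b)
  by_cases hca : a.kd = 1
  · have ma : a.mu true = 1 := if_pos hca
    have mta : a.mt = 2 := if_pos hca
    have e0 : a.C = true := (C_iff a).2 hca
    by_cases hcb : b.kd = 1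
    · have mb : b.mu true = 1 := if_pos hcb
      have mtb : b.mt = 2 := if_pos hcb
      have e1 : b.C = true := (C_iff b).2 hcb
      have jl : jlo a b = 2 * (qlo (lo1 a b) + qlo (fc a b)) := by rw [jlo, e0, e1]; simp only [force_eq]; rfl
      have ju : jup a b = 2 * (qup (up1 a b) + qup (fc a b)) := by rw [jup, e0, e1]; simp only [force_eq]; rfl
      have k1 : a.kd ≠ 0 := by rw [hca]; norm_num
      have k2 : b.kd ≠ 0 := by rw [hcb]; norm_num
      have p1 : 0 < a.r ∧ a.r ≤ a.y := by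
        rcases ok_cases ha with h | h | h
        · exact absurd h.1 k1
        · exact h.2
        · exact absurd hca h.2.1
      have p2 : 0 < b.r ∧ b.r ≤ b.y := by
        rcases ok_cases hb with h | h | h
        · exact absurd h.1 k2
        · exact h.2
        · exact absurd hcb h.2.1
      have b1 := bd_same hN ha hb (s := true) (t := true) (Or.inl rfl)
      have b2 := bd_same hN ha hb (s := false) (t := false) (Or.inl rfl)
      have b3 := bd_opp hN k1 p1.1 p1.2 k2 p2.1 p2.2 (s := true) (t := false) (by simp)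
      have b4 := bd_opp hN k1 p1.1 p1.2 k2 p2.1 p2.2 (s := false) (t := true) (by simp)
      unfold Bd at b1 b2 b3 b4
      rw [J, J0_eq, ma, mb, mta, mtb, jl, ju]
      push_cast
      constructor <;> linarith [b1.1, b1.2, b2.1, b2.2, b3.1, b3.2, b4.1, b4.2]
    · have mb : b.mu true = 0 := if_neg hcb
      have mtb : b.mt = 1 := if_neg hcb
      have e1 : b.C = false := C_false hcb
      have jl : jlo a b = 2 * qlo (lo1 a b) := by rw [jlo, e0, e1]; simp only [force_eq]; rfl
      have ju : jup a b = 2 * qup (up1 a b) := by rw [jup, e0, e1]; simp only [force_eq]; rfl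
      have b1 := bd_same hN ha hb (s := true) (t := false) (Or.inr (Or.inr hcb))
      have b2 := bd_same hN ha hb (s := false) (t := false) (Or.inl rfl)
      unfold Bd at b1 b2
      rw [J, J0_eq, ma, mb, mta, mtb, jl, ju]
      push_cast
      constructor <;> linarith [b1.1, b1.2, b2.1, b2.2]
  · have ma : a.mu true = 0 := if_neg hca
    have mta : a.mt = 1 := if_neg hca
    have e0 : a.C = false := C_false hca
    by_cases hcb : b.kd = 1
    · have mb : b.mu true = 1 := if_pos hcb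
      have mtb : b.mt = 2 := if_pos hcb
      have e1 : b.C = true := (C_iff b).2 hcb
      have jl : jlo a b = 2 * qlo (lo1 a b) := by rw [jlo, e0, e1]; simp only [force_eq]; rfl
      have ju : jup a b = 2 * qup (up1 a b) := by rw [jup, e0, e1]; simp only [force_eq]; rfl
      have b1 := bd_same hN ha hb (s := false) (t := true) (Or.inr (Or.inl hca))
      have b2 := bd_same hN ha hb (s := false) (t := false) (Or.inl rfl)
      unfold Bd at b1 b2
      rw [J, J0_eq, ma, mb, mta, mtb, jl, ju]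
      push_cast
      constructor <;> linarith [b1.1, b1.2, b2.1, b2.2]
    · have mb : b.mu true = 0 := if_neg hcb
      have mtb : b.mt = 1 := if_neg hcb
      have e1 : b.C = false := C_false hcb
      have jl : jlo a b = qlo (lo1 a b) := by rw [jlo, e0, e1]; simp only [force_eq]; rfl
      have ju : jup a b = qup (up1 a b) := by rw [jup, e0, e1]; simp only [force_eq]; rfl
      have b2 := bd_same hN ha hb (s := false) (t := false) (Or.inl rfl)
      unfold Bd at b2
      rw [J, J0_eq, ma, mb, mta, mtb, jl, ju]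
      constructor <;> linarith [b2.1, b2.2]

theorem J_symm (a b : EA) : J S a b = J S b a := by
  rw [J, J, J0_eq, J0_eq, H208.Atom.cr_comm (a.at S true) (b.at S true),
    H208.Atom.cr_comm (a.at S true) (b.at S false), H208.Atom.cr_comm (a.at S false) (b.at S true),
    H208.Atom.cr_comm (a.at S false) (b.at S false)]
  ring

theorem good_J (hN : 0 < S.N) (l : List EA) (h : ∀ a ∈ l, a.ok = true) : Good (J S) l :=
  ⟨fun a _ b _ => J_symm a b, fun a ha b hb => (J_bounds hN (h a ha) (h b hb)).1,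
    fun a ha b hb => (J_bounds hN (h a ha) (h b hb)).2⟩

end Vale.Agent.P030.H476.VE
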