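import Vale.Agent.P030.H476.ValR
import Vale.Agent.P030.H208.PotMix

/-!
# The eight measures of a mixed table and the sum of their energies
-/

namespace Vale.Agent.P030.H476.VE

open Real Vale.Agent.P030.H3 Vale.Agent.P030.H208
open scoped ComplexConjugate

theorem sumFin {α : Type*} (l : List α) (f : α → ℝ) :
    ∑ k : Fin l.length, f (l.get k) = (l.map f).sum := by
  rw [← List.sum_ofFn]
  have h : List.map f (List.ofFn l.get) = List.ofFn (f ∘ l.get) := List.map_ofFn
  rw [List.ofFn_get] at h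
  rw [h]
  rfl

/-! ### sanity of the data -/

def EA.ml (a : EA) : Nat := cond a.C 2 1

def sm (f : EA → Nat) : List EA → Nat
  | [] => 0
  | a :: l => Nat.add (Nat.mul a.ml (f a)) (sm f l)

def smu : List EA → Nat
  | [] => 0
  | a :: l => Nat.add a.ml (smu l)

def allok : List EA → Bool
  | [] => true
  | a :: l => a.ok && allok l

/-- scales positive, entries valid, total charge `L` on each level -/
def okE (S : SE) (l : List EA) : Bool :=
  (Nat.ble 1 S.N && Nat.ble 1 S.L) && (allok l &&
    ((((Nat.beq (sm EA.u0 l) (Nat.add S.L (Nat.mul S.O (smu l))) &&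
        Nat.beq (sm EA.u1 l) (Nat.add S.L (Nat.mul S.O (smu l)))) &&
      (Nat.beq (sm EA.u2 l) (Nat.add S.L (Nat.mul S.O (smu l))) &&
        Nat.beq (sm EA.u3 l) (Nat.add S.L (Nat.mul S.O (smu l))))) &&
      ((Nat.beq (sm EA.u4 l) (Nat.add S.L (Nat.mul S.O (smu l))) &&
        Nat.beq (sm EA.u5 l) (Nat.add S.L (Nat.mul S.O (smu l)))) &&
      (Nat.beq (sm EA.u6 l) (Nat.add S.L (Nat.mul S.O (smu l))) &&
        Nat.beq (sm EA.u7 l) (Nat.add S.L (Nat.mul S.O (smu l))))))))

variable {S : SE} {l : List EA}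

theorem okE_N (h : okE S l = true) : 0 < S.N := by
  simp only [okE, Bool.and_eq_true] at h
  exact Nat.le_of_ble_eq_true h.1.1

theorem okE_L (h : okE S l = true) : 0 < S.L := by
  simp only [okE, Bool.and_eq_true] at h
  exact Nat.le_of_ble_eq_true h.1.2

theorem allok_mem (h : allok l = true) : ∀ a ∈ l, a.ok = true := by
  induction l with
  | nil => simp
  | cons b l ih =>
    rw [allok, Bool.and_eq_true] at h
    intro a ha
    rcases List.mem_cons.1 ha with rfl | h2
    · exact h.1
    · exact ih h.2 a h2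

theorem okE_ok (h : okE S l = true) : ∀ a ∈ l, a.ok = true := by
  simp only [okE, Bool.and_eq_true] at h
  exact allok_mem h.2.1

theorem okE_sm (h : okE S l = true) (i : Fin 8) :
    sm (fun a => a.u i) l = S.L + S.O * smu l := by
  simp only [okE, Bool.and_eq_true] at h
  obtain ⟨-, -, ⟨⟨⟨h0, h1⟩, ⟨h2, h3⟩⟩, ⟨⟨h4, h5⟩, ⟨h6, h7⟩⟩⟩⟩ := h
  fin_cases i
  · exact Nat.eq_of_beq_eq_true h0
  · exact Nat.eq_of_beq_eq_true h1
  · exact Nat.eq_of_beq_eq_true h2
  · exact Nat.eq_of_beq_eq_true h3
  · exact Nat.eq_of_beq_eq_true h4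
  · exact Nat.eq_of_beq_eq_true h5
  · exact Nat.eq_of_beq_eq_true h6
  · exact Nat.eq_of_beq_eq_true h7

theorem ml_eq (a : EA) : (a.ml : ℝ) = a.mt := by
  by_cases h : a.kd = 1
  · rw [EA.ml, (C_iff a).2 h, EA.mt, if_pos h]; norm_num
  · rw [EA.ml, C_false h, EA.mt, if_neg h]; norm_num

theorem sum_mu (a : EA) : ∑ s, a.mu s = a.mt := by
  rw [Fintype.sum_bool, mu_false, EA.mu, EA.mt, cond_true]
  by_cases h : a.kd = 1
  · rw [if_pos h, if_pos h]; norm_num
  · rw [if_neg h, if_neg h]; norm_num

theorem sm_cast (f : EA → Nat) : (sm f l : ℝ) = (l.map fun a => a.mt * (f a : ℝ)).sum := by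
  induction l with
  | nil => simp [sm]
  | cons a l ih =>
    have e : sm f (a :: l) = a.ml * f a + sm f l := rfl
    rw [e, Nat.cast_add, Nat.cast_mul, ml_eq, ih, List.map_cons, List.sum_cons]

theorem smu_cast : (smu l : ℝ) = (l.map fun a => a.mt).sum := by
  induction l with
  | nil => simp [smu]
  | cons a l ih =>
    have e : smu (a :: l) = a.ml + smu l := rfl
    rw [e, Nat.cast_add, ml_eq, ih, List.map_cons, List.sum_cons]

/-- total charge -/
theorem sum_charge (h : okE S l = true) (i : Fin 8) :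
    (l.map fun a => a.q S.O i * a.mt).sum = S.L := by
  have h1 := okE_sm h i
  have h2 : ((sm (fun a => a.u i) l : ℕ) : ℝ) = S.L + S.O * (smu l : ℝ) := by
    rw [h1]; push_cast; ring
  rw [sm_cast, smu_cast] at h2
  have h3 : (l.map fun a => a.q S.O i * a.mt) =
      l.map fun a => a.mt * (a.u i : ℝ) + (-(S.O : ℝ)) * a.mt := by
    refine List.map_congr_left fun a _ => ?_
    rw [EA.q]; ring
  rw [h3, List.sum_map_add, List.sum_map_mul_left]
  linarith

/-- **the measure of level `i`** -/
noncomputable def lvM (S : SE) (l : List EA) (h : okE S l = true) (i : Fin 8) :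
    Mix (Fin l.length × Bool) where
  w k := (l.get k.1).q S.O i * (l.get k.1).mu k.2 / S.L
  A k := (l.get k.1).at S k.2
  w_sum := by
    have hL : (0 : ℝ) < S.L := by exact_mod_cast okE_L h
    rw [Fintype.sum_prod_type]
    have : ∀ k : Fin l.length, ∑ s, (l.get k).q S.O i * (l.get k).mu s / (S.L : ℝ) =
        (l.get k).q S.O i * (l.get k).mt * (S.L : ℝ)⁻¹ := by
      intro k
      rw [← Finset.sum_div, ← Finset.mul_sum, sum_mu, div_eq_mul_inv]
    simp only [this]
    rw [← Finset.sum_mul, sumFin l (fun a => a.q S.O i * a.mt), sum_charge h,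
      mul_inv_cancel₀ hL.ne']

/-- potential of an entry -/
noncomputable def EA.pot (S : SE) (a : EA) (z : ℂ) : ℝ := ∑ s, a.mu s * (a.at S s).u z

theorem pot_K (hN : 0 < S.N) {a : EA} (h : a.kd = 0) (hok : a.ok = true) (z : ℂ) :
    a.pot S z = log (max ‖z - a.z S‖ ‖z - conj (a.z S)‖) := by
  have hay : 0 < a.y := by
    rcases ok_cases hok with h' | h' | h'
    · exact h'.2
    · exact absurd (h ▸ h'.1) (by norm_num)
    · exact absurd h h'.1
  obtain ⟨h1, -, e1⟩ := at_K hN h hay
  rw [EA.pot, Fintype.sum_bool, mu_false, e1, e1, cau_u]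
  have : a.mu true = 0 := by rw [EA.mu, cond_true, if_neg (by rw [h]; norm_num)]
  rw [this]
  ring

theorem pot_C (hN : 0 < S.N) {a : EA} (h : a.kd = 1) (hok : a.ok = true) (z : ℂ) :
    a.pot S z = log (max (a.ρ S) ‖z - a.z S‖) + log (max (a.ρ S) ‖z - conj (a.z S)‖) := by
  have k1 : a.kd ≠ 0 := by rw [h]; norm_num
  have har : 0 < a.r := by
    rcases ok_cases hok with h' | h' | h'
    · exact absurd h'.1 k1
    · exact h'.2.1
    · exact h'.2.2.1
  obtain ⟨h1, e1⟩ := at_C hN k1 har
  rw [EA.pot, Fintype.sum_bool, mu_false, e1, e1, circ_u, circ_u]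
  have : a.mu true = 1 := by rw [EA.mu, cond_true, if_pos h]
  rw [this]
  simp only [EA.zs, cond_true, cond_false]
  ring

theorem pot_Z (hN : 0 < S.N) {a : EA} (h : a.kd ≠ 0) (h' : a.kd ≠ 1) (hok : a.ok = true) (z : ℂ) :
    a.pot S z = log (max (a.ρ S) ‖z - a.z S‖) := by
  have har : 0 < a.r := by
    rcases ok_cases hok with h' | h' | h'
    · exact absurd h'.1 h
    · exact h'.2.1
    · exact h'.2.2.1
  obtain ⟨h1, e1⟩ := at_C hN h har
  rw [EA.pot, Fintype.sum_bool, mu_false, e1, e1, circ_u, circ_u]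
  have : a.mu true = 0 := by rw [EA.mu, cond_true, if_neg h']
  rw [this]
  simp only [EA.zs, cond_false]
  ring

/-- **potential of level `i`** -/
theorem lvM_U (h : okE S l = true) (i : Fin 8) (z : ℂ) :
    (lvM S l h i).U z = (l.map fun a => a.q S.O i * a.pot S z).sum / S.L := by
  rw [Mix.U, Fintype.sum_prod_type]
  have : ∀ k : Fin l.length, ∑ s, (lvM S l h i).w (k, s) * ((lvM S l h i).A (k, s)).u z =
      (l.get k).q S.O i * (l.get k).pot S z * (S.L : ℝ)⁻¹ := by
    intro k
    rw [EA.pot, Finset.mul_sum, Finset.sum_mul]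
    refine Finset.sum_congr rfl fun s _ => ?_
    change (l.get k).q S.O i * (l.get k).mu s / S.L * ((l.get k).at S s).u z = _
    ring
  simp only [this]
  rw [← Finset.sum_mul, sumFin l (fun a => a.q S.O i * a.pot S z), div_eq_mul_inv]

/-- **energy of level `i`** -/
theorem lvM_En (h : okE S l = true) (i : Fin 8) :
    (lvM S l h i).En =
      (l.map fun a => (l.map fun b => a.q S.O i * b.q S.O i * J0 S a b).sum).sum / S.L ^ 2 := by
  rw [Mix.En, Fintype.sum_prod_type]
  have : ∀ k : Fin l.length, ∑ s, ∑ p : Fin l.length × Bool,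
      (lvM S l h i).w (k, s) * (lvM S l h i).w p *
        ((lvM S l h i).A (k, s)).cr ((lvM S l h i).A p) =
      (l.map fun b => (l.get k).q S.O i * b.q S.O i * J0 S (l.get k) b).sum *
        ((S.L : ℝ) ^ 2)⁻¹ := by
    intro k
    rw [← sumFin l (fun b => (l.get k).q S.O i * b.q S.O i * J0 S (l.get k) b), Finset.sum_mul]
    simp only [Fintype.sum_prod_type]
    rw [Finset.sum_comm]
    refine Finset.sum_congr rfl fun j _ => ?_
    rw [J0, Finset.mul_sum, Finset.sum_mul]
    refine Finset.sum_congr rfl fun s _ => ?_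
    rw [Finset.mul_sum, Finset.sum_mul]
    refine Finset.sum_congr rfl fun t _ => ?_
    change (l.get k).q S.O i * (l.get k).mu s / S.L * ((l.get j).q S.O i * (l.get j).mu t / S.L) *
      ((l.get k).at S s).cr ((l.get j).at S t) = _
    rw [div_eq_mul_inv, div_eq_mul_inv, pow_two, mul_inv]
    ring
  simp only [this]
  rw [← Finset.sum_mul, div_eq_mul_inv,
    sumFin l (fun a => (l.map fun b => a.q S.O i * b.q S.O i * J0 S a b).sum)]

theorem sum_map_comm {α : Type*} (l : List α) (f : Fin 8 → α → ℝ) :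
    ∑ i, (l.map (f i)).sum = (l.map fun a => ∑ i, f i a).sum := by
  induction l with
  | nil => simp
  | cons a l ih => simp only [List.map_cons, List.sum_cons, Finset.sum_add_distrib, ih]

/-- **sum of the energies of the eight levels** -/
theorem sum_En (h : okE S l = true) :
    ∑ i, (lvM S l h i).En = FF S.O (J S) l / (2 * S.L ^ 2) - 8 * log S.N := by
  have hL : (0 : ℝ) < S.L := by exact_mod_cast okE_L h
  simp only [lvM_En h, ← Finset.sum_div]
  rw [sum_map_comm]
  have h1 : (l.map fun a => ∑ i, (l.map fun b => a.q S.O i * b.q S.O i * J0 S a b).sum).sum =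
      (l.map fun a => (l.map fun b => cf S.O a b * J0 S a b).sum).sum := by
    congr 1
    refine List.map_congr_left fun a _ => ?_
    rw [sum_map_comm]
    congr 1
    refine List.map_congr_left fun b _ => ?_
    rw [cf, Finset.sum_mul]
  have h2 : FF S.O (J S) l = 2 * (l.map fun a => (l.map fun b => cf S.O a b * J0 S a b).sum).sum +
      2 * log S.N * (8 * (S.L : ℝ) ^ 2) := by
    have h3 : (8 * (S.L : ℝ) ^ 2) =
        (l.map fun a => (l.map fun b => cf S.O a b * (a.mt * b.mt)).sum).sum := by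
      have h4 : ∀ i : Fin 8, (S.L : ℝ) ^ 2 = (l.map fun a => (l.map fun b =>
          a.q S.O i * b.q S.O i * (a.mt * b.mt)).sum).sum := by
        intro i
        have e1 : (l.map fun a => (l.map fun b => a.q S.O i * b.q S.O i * (a.mt * b.mt)).sum) =
            l.map fun a => (a.q S.O i * a.mt) * (S.L : ℝ) := by
          refine List.map_congr_left fun a _ => ?_
          rw [← sum_charge h i, ← List.sum_map_mul_left]
          congr 1
          refine List.map_congr_left fun b _ => ?_
          ring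
        rw [e1, List.sum_map_mul_right, sum_charge h i]
        ring
      have h5 : (8 * (S.L : ℝ) ^ 2) = ∑ i : Fin 8, (l.map fun a => (l.map fun b =>
          a.q S.O i * b.q S.O i * (a.mt * b.mt)).sum).sum := by
        rw [← Finset.sum_congr rfl fun i _ => h4 i]
        simp
      rw [h5, sum_map_comm]
      congr 1
      refine List.map_congr_left fun a _ => ?_
      rw [sum_map_comm]
      congr 1
      refine List.map_congr_left fun b _ => ?_
      rw [cf, Finset.sum_mul]
    rw [h3, FF, ← List.sum_map_mul_left, ← List.sum_map_mul_left, ← List.sum_map_add]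
    congr 1
    refine List.map_congr_left fun a _ => ?_
    rw [← List.sum_map_mul_left, ← List.sum_map_mul_left, ← List.sum_map_add]
    congr 1
    refine List.map_congr_left fun b _ => ?_
    rw [J]
    ring
  rw [h1, h2]
  field_simp
  ring

/-! ### segments of rows -/

/-- the first `i` rows contribute at least `P - N` -/
def Seg (S : SE) (l : List EA) (i P Q : ℕ) : Prop :=
  (P : ℝ) - Q + 2 ^ 40 * FF S.O (J S) (l.drop i) ≤ 2 ^ 40 * FF S.O (J S) l

theorem seg_zero : Seg S l 0 0 0 := by simp [Seg]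

theorem mem_of_drop {α : Type*} (l : List α) (i : ℕ) {a : α} (h : a ∈ l.drop i) : a ∈ l :=
  List.mem_of_mem_drop h

/-- **one more segment**: rows `i`, …, `i + k - 1` -/
theorem seg_step (h : okE S l = true) {i P Q : ℕ} (hs : Seg S l i P Q) (k : ℕ) {P' Q' : ℕ}
    (hp : Nat.ble P' (segP S.O k (l.drop i)) = true)
    (hq : Nat.ble (segN S.O k (l.drop i)) Q' = true) :
    Seg S l (i + k) (P + P') (Q + Q') := by
  unfold Seg at hs ⊢
  have h1 := seg_ge (O := S.O) (J := J S) k (l.drop i)
    ((good_J (okE_N h) l (okE_ok h)).mono fun a ha => List.mem_of_mem_drop ha)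
  rw [List.drop_drop] at h1
  have h2 : (P' : ℝ) ≤ segP S.O k (l.drop i) := by exact_mod_cast Nat.le_of_ble_eq_true hp
  have h3 : (segN S.O k (l.drop i) : ℝ) ≤ Q' := by exact_mod_cast Nat.le_of_ble_eq_true hq
  push_cast
  linarith

/-- **the final bound** -/
theorem sum_En_ge (h : okE S l = true) {P Q n : ℕ} (hs : Seg S l n P Q) (hn : l.length ≤ n) :
    ((P : ℝ) - Q) / (2 ^ 41 * S.L ^ 2) - 8 * log S.N ≤ ∑ i, (lvM S l h i).En := by
  have hL : (0 : ℝ) < S.L := by exact_mod_cast okE_L h
  rw [sum_En h]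
  unfold Seg at hs
  have e : l.drop n = [] := List.drop_eq_nil_of_le hn
  rw [e] at hs
  have e2 : FF S.O (J S) [] = 0 := by simp [FF]
  rw [e2] at hs
  have h1 : ((P : ℝ) - Q) / (2 ^ 41 * S.L ^ 2) ≤ FF S.O (J S) l / (2 * S.L ^ 2) := by
    rw [div_le_div_iff₀ (by positivity) (by positivity)]
    have h3 : ((P : ℝ) - Q) * (2 * S.L ^ 2) ≤ (2 ^ 40 * FF S.O (J S) l) * (2 * S.L ^ 2) := by
      apply mul_le_mul_of_nonneg_right _ (by positivity)
      linarith
    linarith
  linarith

end Vale.Agent.P030.H476.VE
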